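import Mathlib

/-! Abstract commutative algebra for P266, part 1. -/

namespace Vale.Agent.P266
open Algebra

/-- Extension of derivations to the fraction field. -/
lemma ext_der {R F : Type*} [CommRing R] [Field F] [Algebra ℂ R] [Algebra ℂ F] [Algebra R F]
    [IsScalarTower ℂ R F] [IsFractionRing R F] (d : Derivation ℂ R F) :
    ∃ D : Derivation ℂ F F, ∀ a, D (algebraMap R F a) = d a := by
  let φ : R →ₐ[ℂ] TrivSqZeroExt F F :=
    { toFun := fun a => TrivSqZeroExt.inl (algebraMap R F a) + TrivSqZeroExt.inr (d a)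
      map_one' := by ext <;> simp
      map_mul' := fun a b => by
        ext
        · simp
        · simp [Algebra.smul_def, mul_comm, TrivSqZeroExt.algebraMap_eq_inl]
      map_zero' := by ext <;> simp
      map_add' := fun a b => by ext <;> simp
      commutes' := fun c => by
        ext
        · simp [← IsScalarTower.algebraMap_apply, TrivSqZeroExt.algebraMap_eq_inl']
        · simp [TrivSqZeroExt.algebraMap_eq_inl'] }
  have hφ1 : ∀ a, (φ a).fst = algebraMap R F a := fun a => by simp [φ]
  have hφ2 : ∀ a, (φ a).snd = d a := fun a => by simp [φ]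
  have hu : ∀ y : nonZeroDivisors R, IsUnit (φ y) := fun y => by
    rw [TrivSqZeroExt.isUnit_iff_isUnit_fst, hφ1]
    exact IsLocalization.map_units F y
  let ψ : F →ₐ[ℂ] TrivSqZeroExt F F := IsLocalization.liftAlgHom (M := nonZeroDivisors R) hu
  have hψ : ∀ a, ψ (algebraMap R F a) = φ a := fun a => by simp [ψ]
  have h1 : ∀ f, (ψ f).fst = f := by
    have : ((TrivSqZeroExt.fstHom ℂ F F).comp ψ).toRingHom = RingHom.id F := by
      apply IsLocalization.ringHom_ext (nonZeroDivisors R)
      ext a
      simp [hψ, hφ1]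
    intro f
    simpa using congr($this f)
  refine ⟨Derivation.mk' ((TrivSqZeroExt.sndHom F F).restrictScalars ℂ ∘ₗ ψ.toLinearMap) ?_, ?_⟩
  · intro a b
    simp [h1, mul_comm]
  · intro a
    simp [hψ, hφ2]

/-- A prime of a subalgebra is cut out by a valuation ring. -/
lemma exists_val {F : Type*} [Field F] [Algebra ℂ F] (A : Subalgebra ℂ F) (p : Ideal A)
    [hp : p.IsPrime] : ∃ O : ValuationSubring F, (∀ a ∈ A, a ∈ O) ∧
      ∀ a : A, O.valuation a < 1 ↔ a ∈ p := by
  have : (show Ideal A.toSubring from p).IsPrime := hp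
  obtain ⟨V, hV1, hV2⟩ := (LocalSubring.ofPrime A.toSubring p).exists_le_valuationSubring
  have hle := LocalSubring.le_ofPrime A.toSubring p
  refine ⟨V, fun a ha => hV1 (hle ha), fun a => ?_⟩
  have h1 := IsLocalization.AtPrime.isUnit_to_map_iff
    (LocalSubring.ofPrime A.toSubring p).toSubring (show Ideal A.toSubring from p) a
  have h2 : IsUnit (Subring.inclusion hV1 (algebraMap A.toSubring
      (LocalSubring.ofPrime A.toSubring p).toSubring a)) ↔ IsUnit (algebraMap A.toSubring
      (LocalSubring.ofPrime A.toSubring p).toSubring a) :=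
    ⟨hV2.1 _, fun h => h.map _⟩
  have h3 := V.valuation_eq_one_iff ⟨a, hV1 (hle a.2)⟩
  have h4 : V.valuation a ≤ 1 := V.valuation_le_one ⟨a, hV1 (hle a.2)⟩
  have h5 : V.valuation a = 1 ↔ a ∉ p := h3.symm.trans (h2.trans h1)
  rw [lt_iff_le_and_ne]
  constructor
  · intro h; by_contra h'; exact h.2 (h5.2 h')
  · intro h; exact ⟨h4, fun h' => h5.1 h' h⟩

open Polynomial in
/-- Integrality can be tested in codimension one over a factorial domain. -/
lemma integral_of_codim {P K F : Type*} [CommRing P] [IsDomain P] [UniqueFactorizationMonoid P]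
    [Field K] [Algebra P K] [IsFractionRing P K] [Field F] [Algebra P F] [Algebra K F]
    [IsScalarTower P K F] (a : F) (ha : IsIntegral K a)
    (h : ∀ π : P, Prime π → ∃ p : P, ¬ π ∣ p ∧ IsIntegral P (p • a)) : IsIntegral P a := by
  have hl : minpoly K a ∈ lifts (algebraMap P K) := by
    rw [lifts_iff_coeff_lifts]
    intro i
    set c := (minpoly K a).coeff i with hc
    by_contra hne
    have hd : ¬ IsUnit (IsFractionRing.den P c : P) := fun hu =>
      hne (IsFractionRing.isInteger_of_isUnit_den hu)
    obtain ⟨π, hπ, hπd⟩ := WfDvdMonoid.exists_irreducible_factor hd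
      (nonZeroDivisors.coe_ne_zero _)
    have hπp : Prime π := hπ.prime
    obtain ⟨p, hp, hi⟩ := h π hπp
    have hp0 : p ≠ 0 := by rintro rfl; exact hp (dvd_zero _)
    have hp0' : algebraMap P K p ≠ 0 := by simpa using hp0
    have e1 := minpoly.isIntegrallyClosed_eq_field_fractions' K hi
    have e2 := IsIntegrallyClosed.minpoly_smul hp0' ha
    rw [algebraMap_smul, e1] at e2
    have e3 := congr(($e2).coeff i)
    rw [coeff_map, coeff_scaleRoots, ← hc] at e3
    have e4 := IsFractionRing.mk'_num_den' P c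
    have hden : algebraMap P K (IsFractionRing.den P c) ≠ 0 := by simp
    have e5 : (minpoly P (p • a)).coeff i * IsFractionRing.den P c =
        IsFractionRing.num P c * p ^ ((minpoly K a).natDegree - i) := by
      apply IsFractionRing.injective P K
      rw [map_mul, map_mul, map_pow, e3]
      rw [div_eq_iff hden] at e4
      rw [e4]; ring
    have : π ∣ IsFractionRing.num P c * p ^ ((minpoly K a).natDegree - i) :=
      e5 ▸ Dvd.dvd.mul_left hπd _
    rcases hπp.dvd_or_dvd this with h1 | h1
    · exact hπ.not_isUnit (IsFractionRing.num_den_reduced P c h1 hπd)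
    · exact hp (hπp.dvd_of_dvd_pow h1)
  obtain ⟨q, hq, -, hm⟩ := lifts_and_natDegree_eq_and_monic hl (minpoly.monic ha)
  refine ⟨q, hm, ?_⟩
  have := minpoly.aeval K a
  rw [← hq, aeval_map_algebraMap] at this
  exact this

/-- Modulo a prime contained in a principal prime, all but one variable stay independent. -/
lemma indep_mod {s : ℕ} {Q : Type} [CommRing Q] [Nontrivial Q] [Algebra ℂ Q]
    (φ : MvPolynomial (Fin s) ℂ →ₐ[ℂ] Q) (π : MvPolynomial (Fin s) ℂ) (hπ : Prime π)
    (h : ∀ p, φ p = 0 → π ∣ p) : (s : Cardinal) ≤ trdeg ℂ Q + 1 := by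
  classical
  have hv : ∃ i, i ∈ π.vars := by
    by_contra hn
    push Not at hn
    have h0 : π.vars = ∅ := Finset.eq_empty_of_forall_notMem hn
    have h1 := MvPolynomial.vars_eq_empty_iff_eq_C.1 h0
    by_cases hc : π.coeff 0 = 0
    · rw [hc, map_zero] at h1; exact hπ.ne_zero h1
    · exact hπ.not_isUnit (h1 ▸ (IsUnit.mk0 _ hc).map MvPolynomial.C)
  obtain ⟨i, hi⟩ := hv
  have hind : AlgebraicIndependent ℂ (fun j : {j // j ≠ i} => φ (MvPolynomial.X j.1)) := by
    rw [algebraicIndependent_iff]
    intro f hf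
    have e : MvPolynomial.aeval (fun j : {j // j ≠ i} => φ (MvPolynomial.X j.1)) f =
        φ (MvPolynomial.rename Subtype.val f) := by
      have : MvPolynomial.aeval (fun j : {j // j ≠ i} => φ (MvPolynomial.X j.1)) =
          φ.comp (MvPolynomial.rename Subtype.val) := by
        ext j; simp
      rw [this]; rfl
    obtain ⟨g, hg⟩ := h _ (e ▸ hf)
    by_contra hf0
    have hr : MvPolynomial.rename (Subtype.val : {j // j ≠ i} → Fin s) f ≠ 0 := fun h0 =>
      hf0 (MvPolynomial.rename_injective _ Subtype.val_injective (by simpa using h0))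
    have hg0 : g ≠ 0 := by rintro rfl; exact hr (by simpa using hg)
    have d1 : MvPolynomial.degreeOf i (MvPolynomial.rename (Subtype.val : {j // j ≠ i} → Fin s) f)
        = 0 := by
      by_contra hne
      have := MvPolynomial.mem_vars_iff_degreeOf_ne_zero.2 hne
      obtain ⟨j, -, hj⟩ := MvPolynomial.mem_vars_rename _ _ this
      exact j.2 hj
    rw [hg, MvPolynomial.degreeOf_mul_eq hπ.ne_zero hg0] at d1
    have := MvPolynomial.mem_vars_iff_degreeOf_ne_zero.1 hi
    omega
  have h1 := hind.cardinalMk_le_trdeg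
  have h2 : (Cardinal.mk {j : Fin s // j ≠ i}) + 1 = s := by
    rw [Cardinal.mk_fintype, Fintype.card_subtype_compl]
    have := i.pos
    simp only [Fintype.card_fin, Fintype.card_unique]
    norm_cast; omega
  rw [← h2]
  gcongr

end Vale.Agent.P266
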