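import Vale.Agent.P266.Abs1

/-! Abstract commutative algebra for P266, part 2: finiteness and dimension. -/

namespace Vale.Agent.P266
open Algebra

variable {F : Type} [Field F] [Algebra ℂ F]

lemma isFrac (A : Subalgebra ℂ F) (h : ∀ f, ∃ b ∈ A, b ≠ 0 ∧ b * f ∈ A) : IsFractionRing A F := by
  refine IsFractionRing.of_field _ _ fun z => ?_
  obtain ⟨b, hb, hb0, hbz⟩ := h z
  refine ⟨⟨_, hbz⟩, ⟨b, hb⟩, ?_⟩
  change z = b * z / b
  field_simp

lemma trdeg_quot (A0 : Subalgebra ℂ F) (U1 U2 : F) (h1 : U1 ≠ 0) (h2 : U2 ≠ 0) (g : Set F)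
    (hA0 : A0 = adjoin ℂ (g ∪ {U1, U1⁻¹, U2, U2⁻¹})) {Q : Type} [CommRing Q] [IsDomain Q]
    [Algebra ℂ Q] (φ : A0 →ₐ[ℂ] Q) (hφ : Function.Surjective φ)
    (hg : ∀ a : A0, a.1 ∈ g → φ a = 0) : trdeg ℂ Q ≤ 2 := by
  have m1 : U1 ∈ A0 := hA0 ▸ subset_adjoin (by simp)
  have m2 : U2 ∈ A0 := hA0 ▸ subset_adjoin (by simp)
  let s : Set Q := {φ ⟨U1, m1⟩, φ ⟨U2, m2⟩}
  have hinv : ∀ (U : F) (hU : U ∈ A0) (hU' : U⁻¹ ∈ A0), U ≠ 0 → φ ⟨U, hU⟩ ∈ s →
      IsAlgebraic (adjoin ℂ s) (φ ⟨U⁻¹, hU'⟩) := by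
    intro U hU hU' h0 hs
    refine ⟨Polynomial.C ⟨_, subset_adjoin hs⟩ * Polynomial.X - 1, fun h => ?_, ?_⟩
    · simpa using congr(($h).coeff 0)
    · have : (⟨U, hU⟩ : A0) * ⟨U⁻¹, hU'⟩ = 1 := Subtype.ext (mul_inv_cancel₀ h0)
      simp only [map_sub, map_mul, Polynomial.aeval_C, Polynomial.aeval_X, map_one]
      change φ _ * φ _ - 1 = 0
      rw [← map_mul, this, map_one, sub_self]
  have halg : Algebra.IsAlgebraic (adjoin ℂ s) Q := by
    refine ⟨fun z => ?_⟩
    obtain ⟨⟨a, ha⟩, rfl⟩ := hφ z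
    have : ∀ a ∈ adjoin ℂ (g ∪ {U1, U1⁻¹, U2, U2⁻¹}), ∀ ha : a ∈ A0,
        IsAlgebraic (adjoin ℂ s) (φ ⟨a, ha⟩) := by
      intro a ha
      induction ha using adjoin_induction with
      | mem x hx =>
        intro ha
        rcases hx with hx | rfl | rfl | rfl | rfl
        · rw [hg ⟨x, ha⟩ hx]; exact isAlgebraic_zero
        · exact isAlgebraic_algebraMap (⟨_, subset_adjoin (by simp [s])⟩ : adjoin ℂ s)
        · exact hinv _ m1 _ h1 (by simp [s])
        · exact isAlgebraic_algebraMap (⟨_, subset_adjoin (by simp [s])⟩ : adjoin ℂ s)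
        · exact hinv _ m2 _ h2 (by simp [s])
      | algebraMap r =>
        intro ha
        have : φ ⟨_, ha⟩ = algebraMap ℂ Q r := φ.commutes r
        rw [this]
        exact isAlgebraic_algebraMap (algebraMap ℂ (adjoin ℂ s) r)
      | add x y hx hy ihx ihy =>
        intro ha
        have := (ihx (hA0 ▸ hx)).add (ihy (hA0 ▸ hy))
        rwa [← map_add] at this
      | mul x y hx hy ihx ihy =>
        intro ha
        have := (ihx (hA0 ▸ hx)).mul (ihy (hA0 ▸ hy))
        rwa [← map_mul] at this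
    exact this a (hA0 ▸ ha) ha
  refine (Algebra.IsAlgebraic.trdeg_le_cardinalMk ℂ s).trans ?_
  refine (Cardinal.mk_insert_le).trans ?_
  rw [Cardinal.mk_singleton]; norm_num

theorem fin_part (htr : trdeg ℂ F = 4) (A0 A : Subalgebra ℂ F) (U1 U2 : F) (h1 : U1 ≠ 0)
    (h2 : U2 ≠ 0) (g : Set F) (hg : g.Finite)
    (hA0 : A0 = adjoin ℂ (g ∪ {U1, U1⁻¹, U2, U2⁻¹})) (hle : A0 ≤ A)
    {ι : Type} (x : ι → F) (hx : ∀ c, x c ∈ A0)
    (hloc : ∀ a ∈ A, ∀ c, ∃ n, x c ^ n * a ∈ A0)
    (hfrac : ∀ f, ∃ b ∈ A0, b ≠ 0 ∧ b * f ∈ A0)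
    (hval : ∀ O : ValuationSubring F, (∀ a ∈ A0, a ∈ O) → (∀ c, O.valuation (x c) < 1) →
      ∀ a ∈ g, O.valuation a < 1) :
    FiniteType ℂ A ∧ ringKrullDim A ≤ 4 ∧ ∀ a ∈ A, IsIntegral A0 a := by
  have hft : FiniteType ℂ A0 := by
    rw [hA0]; exact FiniteType.adjoin_of_finite (hg.union (Set.toFinite _))
  obtain ⟨s, φ, hinj, hfin⟩ := exists_finite_inj_algHom_of_fg ℂ A0
  set P := MvPolynomial (Fin s) ℂ
  let : Algebra P A0 := φ.toRingHom.toAlgebra
  have : IsScalarTower ℂ P A0 := .of_algHom φ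
  have : Module.Finite P A0 := hfin
  let : Algebra P F := (A0.val.comp φ).toRingHom.toAlgebra
  have : IsScalarTower ℂ P F := .of_algHom (A0.val.comp φ)
  have : IsScalarTower P A0 F := .of_algebraMap_eq fun _ => rfl
  have : FaithfulSMul P A0 := (faithfulSMul_iff_algebraMap_injective _ _).2 hinj
  have : FaithfulSMul P F :=
    (faithfulSMul_iff_algebraMap_injective _ _).2 (Subtype.val_injective.comp hinj)
  have := isFrac A0 hfrac
  let K := FractionRing P
  let : Algebra K F := FractionRing.liftAlgebra P F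
  have : IsScalarTower P K F := FractionRing.isScalarTower_liftAlgebra P F
  have : Module.Finite K F := Module.Finite.of_isLocalization P A0 (nonZeroDivisors P)
  have halg : Algebra.IsAlgebraic P F := (IsFractionRing.isAlgebraic_iff' P A0 F).1 inferInstance
  have hs : s = 4 := by
    have := trdeg_add_eq ℂ P (A := F)
    rw [trdeg_eq_zero (R := P), htr, MvPolynomial.trdeg_of_isDomain] at this
    simp only [Cardinal.mk_fintype, Fintype.card_fin, Cardinal.lift_natCast, add_zero] at this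
    exact_mod_cast this
  have hint : ∀ a ∈ A, IsIntegral P a := by
    intro a ha
    refine integral_of_codim (K := K) a (Algebra.IsIntegral.isIntegral a) fun π hπ => ?_
    by_contra hcon
    push Not at hcon
    let I : Ideal A0 :=
      { carrier := {b | b.1 * a ∈ A0}
        add_mem' := fun {b c} hb hc => by
          simp only [Set.mem_ofPred_eq, Subalgebra.coe_add, add_mul] at *
          exact add_mem hb hc
        zero_mem' := by simp
        smul_mem' := fun c b hb => by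
          simp only [Set.mem_ofPred_eq, smul_eq_mul, Subalgebra.coe_mul, mul_assoc] at *
          exact mul_mem c.2 hb }
    have hpp : (Ideal.span {π}).IsPrime := (Ideal.span_singleton_prime hπ.ne_zero).2 hπ
    obtain ⟨p, hp, hIp, hd⟩ := Ideal.exists_le_prime_disjoint I
      ((Ideal.span {π}).primeCompl.map φ) (by
        rw [Set.disjoint_left]
        rintro _ hb ⟨q, hq, rfl⟩
        refine hcon q (fun h => hq (Ideal.mem_span_singleton.2 h)) ?_
        exact (Algebra.IsIntegral.isIntegral (R := P) (⟨_, hb⟩ : A0)).algebraMap (B := F))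
    obtain ⟨O, hO, hOp⟩ := exists_val A0 p
    have hxp : ∀ c, O.valuation (x c) < 1 := fun c => by
      obtain ⟨n, hn⟩ := hloc a ha c
      exact (hOp ⟨_, hx c⟩).2 (hp.mem_of_pow_mem n (hIp (by simpa [I] using hn)))
    have t1 := trdeg_quot A0 U1 U2 h1 h2 g hA0 (Ideal.Quotient.mkₐ ℂ p)
      (Ideal.Quotient.mkₐ_surjective ℂ p) fun b hb =>
      Ideal.Quotient.eq_zero_iff_mem.2 ((hOp b).1 (hval O hO hxp _ hb))
    have t2 := indep_mod ((Ideal.Quotient.mkₐ ℂ p).comp φ) π hπ fun q hq => by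
      by_contra hn
      refine Set.disjoint_left.1 hd (Ideal.Quotient.eq_zero_iff_mem.1 hq) ⟨q, fun h => hn ?_, rfl⟩
      exact Ideal.mem_span_singleton.1 h
    have t3 : (s : Cardinal) ≤ 2 + 1 := t2.trans (by gcongr)
    rw [hs] at t3
    norm_cast at t3
  let : Algebra P A := ((Subalgebra.inclusion hle).comp φ).toRingHom.toAlgebra
  have : IsScalarTower ℂ P A := .of_algHom ((Subalgebra.inclusion hle).comp φ)
  have : IsScalarTower P A F := .of_algebraMap_eq fun _ => rfl
  have hfc : Module.Finite P (integralClosure P F) := IsIntegralClosure.finite P K F _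
  let j : A →ₗ[P] integralClosure P F :=
    { toFun := fun a => ⟨a.1, hint _ a.2⟩
      map_add' := fun _ _ => rfl
      map_smul' := fun _ _ => rfl }
  have hfA : Module.Finite P A := Module.Finite.of_injective j fun a b h =>
    Subtype.ext congr(($h).1)
  refine ⟨FiniteType.trans (S := P) inferInstance inferInstance, ?_,
    fun a ha => (hint a ha).tower_top⟩
  have hk : ringKrullDim A ≤ ringKrullDim P :=
    Order.krullDim_le_of_strictMono (PrimeSpectrum.comap (algebraMap P A)) fun I J h =>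
      Ideal.IsIntegral.comap_lt_comap (R := P) (I := I.asIdeal) (J := J.asIdeal) h
  refine hk.trans ?_
  rw [MvPolynomial.ringKrullDim_of_isNoetherianRing, ringKrullDim_eq_zero_of_field]
  simp [hs]

end Vale.Agent.P266
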