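import Vale.Agent.P266.Abs2

/-! Abstract commutative algebra for P266, part 3: the derivation module and non-regularity. -/

namespace Vale.Agent.P266
open Algebra

variable {F : Type} [Field F] [Algebra ℂ F]

/-- Restriction of a derivation to a stable subalgebra. -/
def resD (A : Subalgebra ℂ F) (D : Derivation ℂ F F) (h : ∀ a ∈ A, D a ∈ A) :
    Derivation ℂ A A where
  toFun a := ⟨D a, h _ a.2⟩
  map_add' a b := Subtype.ext (map_add D a.1 b.1)
  map_smul' c a := Subtype.ext (D.map_smul c a.1)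
  map_one_eq_zero' := Subtype.ext D.map_one_eq_zero
  leibniz' a b := Subtype.ext (D.leibniz a.1 b.1)

lemma resD_apply (A : Subalgebra ℂ F) (D : Derivation ℂ F F) (h : ∀ a ∈ A, D a ∈ A) (a : A) :
    (resD A D h a : F) = D a := rfl

lemma der_indep (A : Subalgebra ℂ F) (D : Fin 4 → Derivation ℂ F F)
    (hcr : ∀ a : Fin 4 → F, (∀ b ∈ A, ∑ k, a k * D k b ∈ A) → ∀ k, a k ∈ A)
    (hne : ∃ f, f ∉ A) (a : Fin 4 → F) (h : ∀ b ∈ A, ∑ k, a k * D k b = 0) : a = 0 := by
  obtain ⟨f, hf⟩ := hne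
  funext k
  by_contra hk
  refine hf ?_
  have := hcr (fun l => f / a k * a l) (fun b hb => by
    simp only [mul_assoc, ← Finset.mul_sum, h b hb, mul_zero, zero_mem]) k
  rwa [div_mul_cancel₀ _ hk] at this

theorem der_free (A : Subalgebra ℂ F) (hfrac : ∀ f, ∃ b ∈ A, b ≠ 0 ∧ b * f ∈ A)
    (D : Fin 4 → Derivation ℂ F F) (hD : ∀ k, ∀ a ∈ A, D k a ∈ A)
    (hcr : ∀ a : Fin 4 → F, (∀ b ∈ A, ∑ k, a k * D k b ∈ A) → ∀ k, a k ∈ A)
    (hspan : ∀ δ : Derivation ℂ F F, ∃ a : Fin 4 → F, ∀ f, δ f = ∑ k, a k * D k f)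
    (hne : ∃ f, f ∉ A) :
    ∃ b : Module.Basis (Fin 4) A (Derivation ℂ A A), b 0 = resD A (D 0) (hD 0) := by
  have := isFrac A hfrac
  have key : ∀ (c : Fin 4 → A) (b : A),
      ((∑ k, c k • resD A (D k) (hD k)) b : F) = ∑ k, (c k : F) * D k b := by
    intro c b
    simp [Fin.sum_univ_four, resD_apply]
  refine ⟨Module.Basis.mk (v := fun k => resD A (D k) (hD k)) ?_ ?_, Module.Basis.mk_apply ..⟩
  · rw [Fintype.linearIndependent_iff]
    intro c hc k
    have := der_indep A D hcr hne (fun k => c k) fun b hb => by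
      rw [← key c ⟨b, hb⟩, hc]; rfl
    exact Subtype.ext congr($this k)
  · intro δ _
    obtain ⟨δ', hδ⟩ := ext_der (F := F) ((Algebra.linearMap A F).compDer δ)
    obtain ⟨a, ha⟩ := hspan δ'
    have e : ∀ b : A, ∑ k, a k * D k b = δ b := fun b => (ha b).symm.trans (hδ b)
    have hA := hcr a fun b hb => by rw [e ⟨b, hb⟩]; exact (δ ⟨b, hb⟩).2
    rw [Submodule.mem_span_range_iff_exists_fun]
    refine ⟨fun k => ⟨a k, hA k⟩, ?_⟩
    ext b
    rw [key]; exact e b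

lemma nonsmooth {A : Type} [CommRing A] [Algebra ℂ A] (b : Module.Basis (Fin 4) A (Derivation ℂ A A))
    (I : Ideal A) (hI : I ≠ ⊤) (h0 : ∀ a, b 0 a ∈ I) : ¬ Smooth ℂ A := by
  intro hs
  let e := KaehlerDifferential.linearMapEquivDerivation ℂ A (M := A)
  obtain ⟨w, hw⟩ := (Module.bijective_dual_eval A Ω[A⁄ℂ]).2 (b.coord 0 ∘ₗ e.toLinearMap)
  have h1 : e.symm (b 0) w = 1 := by simpa using congr($hw (e.symm (b 0)))
  have h2 : (⊤ : Submodule A Ω[A⁄ℂ]) ≤ Submodule.comap (e.symm (b 0)) I := by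
    rw [← KaehlerDifferential.span_range_derivation, Submodule.span_le]
    rintro _ ⟨a, rfl⟩
    simpa [e] using h0 a
  exact hI ((Ideal.eq_top_iff_one _).2 (h1 ▸ h2 trivial))

lemma gens_of_regular {A : Type} [CommRing A] [IsDomain A] [IsRegularRing A]
    (hdim : ringKrullDim A ≤ 4) (m : Ideal A) [m.IsPrime] :
    ∃ x : Fin 4 → A, (∀ i, x i ∈ m) ∧ ∀ a ∈ m, ∃ s ∉ m, ∃ c : Fin 4 → A,
      s * a = ∑ i, c i * x i := by
  classical
  let R := Localization.AtPrime m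
  have h1 : ((IsLocalRing.maximalIdeal R).spanFinrank : WithBot ℕ∞) ≤ 4 := by
    rw [IsRegularLocalRing.spanFinrank_maximalIdeal,
      IsLocalization.AtPrime.ringKrullDim_eq_height m R]
    exact Ideal.height_le_ringKrullDim_of_isPrime.trans hdim
  obtain ⟨t, ht, hsp⟩ := Submodule.FG.exists_span_finset_card_eq_spanFinrank
    (IsNoetherian.noetherian (IsLocalRing.maximalIdeal R))
  have h2 : t.card ≤ 4 := by rw [ht]; exact_mod_cast h1
  let y : Fin 4 → R := fun i => if h : i.1 < t.card then (t.equivFin.symm ⟨i, h⟩).1 else 0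
  have hy : ∀ i, y i ∈ IsLocalRing.maximalIdeal R := fun i => by
    simp only [y]
    split_ifs
    · rw [← hsp]; exact Submodule.subset_span (Subtype.prop _)
    · exact zero_mem _
  have hy2 : ∀ z ∈ t, ∃ i, y i = z := fun z hz =>
    ⟨⟨t.equivFin ⟨z, hz⟩, (Fin.prop _).trans_le h2⟩, by simp [y]⟩
  choose x s hxs using fun i => IsLocalization.exists_mk'_eq m.primeCompl (y i)
  refine ⟨x, fun i => (IsLocalization.AtPrime.mk'_mem_maximal_iff R m _ _).1 (hxs i ▸ hy i),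
    fun a ha => ?_⟩
  have h3 : algebraMap A R a ∈ (Ideal.span (Set.range x)).map (algebraMap A R) := by
    have : IsLocalRing.maximalIdeal R ≤ (Ideal.span (Set.range x)).map (algebraMap A R) := by
      rw [← hsp, Submodule.span_le]
      intro z hz
      obtain ⟨i, rfl⟩ := hy2 z hz
      rw [← hxs i, IsLocalization.mk'_eq_mul_mk'_one]
      exact Ideal.mul_mem_right _ _ (Ideal.mem_map_of_mem _ (Ideal.subset_span ⟨i, rfl⟩))
    exact this ((IsLocalization.AtPrime.to_map_mem_maximal_iff R m a).2 ha)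
  obtain ⟨⟨b, u⟩, hb⟩ := (IsLocalization.mem_map_algebraMap_iff m.primeCompl R).1 h3
  obtain ⟨c, hc⟩ := Ideal.mem_span_range_iff_exists_fun.1 b.2
  refine ⟨u, u.2, c, ?_⟩
  rw [hc, mul_comm]
  apply IsLocalization.injective R m.primeCompl_le_nonZeroDivisors
  rw [map_mul]; exact hb

theorem nonreg (A : Subalgebra ℂ F) [FiniteType ℂ A] (hdim : ringKrullDim A ≤ 4)
    (D : Fin 4 → Derivation ℂ F F) (hD : ∀ k, ∀ a ∈ A, D k a ∈ A)
    (hcr : ∀ a : Fin 4 → F, (∀ b ∈ A, ∑ k, a k * D k b ∈ A) → ∀ k, a k ∈ A)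
    (hne : ∃ f, f ∉ A) (I : Ideal A) (hI : I ≠ ⊤)
    (h0 : ∀ a : A, resD A (D 0) (hD 0) a ∈ I) : ¬ IsRegularRing A := by
  intro hreg
  obtain ⟨m, hm, hIm⟩ := I.exists_le_maximal hI
  have hres : ∀ a : A, ∃ c : ℂ, a - algebraMap ℂ A c ∈ m := by
    intro a
    let := Ideal.Quotient.field m
    have : Module.Finite ℂ (A ⧸ m) := finite_of_finite_type_of_isJacobsonRing ℂ (A ⧸ m)
    obtain ⟨c, hc⟩ := (IsAlgClosed.algebraMap_bijective_of_isIntegral (k := ℂ)
      (K := A ⧸ m)).2 (Ideal.Quotient.mk m a)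
    exact ⟨c, Ideal.Quotient.eq.1 hc.symm⟩
  obtain ⟨x, hx, hgen⟩ := gens_of_regular hdim m
  let d : Derivation ℂ A (Fin 4 → A) :=
    { toFun := fun a k => resD A (D k) (hD k) a
      map_add' := fun a b => funext fun k => map_add _ _ _
      map_smul' := fun c a => funext fun k => Derivation.map_smul _ _ _
      map_one_eq_zero' := funext fun k => (resD A (D k) (hD k)).map_one_eq_zero
      leibniz' := fun a b => funext fun k => (resD A (D k) (hD k)).leibniz a b }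
  let N' : Submodule A (Fin 4 → A) := Submodule.span A (Set.range d)
  let N : Submodule A (Fin 4 → A) := Submodule.span A (Set.range fun i => d (x i))
  have hN : N' ≤ N ⊔ m • N' := by
    rw [Submodule.span_le]
    rintro _ ⟨a, rfl⟩
    have hm' : ∀ z ∈ m, ∀ b, z • d b ∈ N ⊔ m • N' := fun z hz b =>
      Submodule.mem_sup_right (Submodule.smul_mem_smul hz (Submodule.subset_span ⟨b, rfl⟩))
    obtain ⟨c, hc⟩ := hres a
    obtain ⟨s, hs, e, he⟩ := hgen _ hc
    obtain ⟨l, hl⟩ := hres s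
    have hl0 : l ≠ 0 := by rintro rfl; exact hs (by simpa using hl)
    have e1 := congr(d $he)
    rw [Derivation.leibniz, map_sub, Derivation.map_algebraMap, sub_zero, map_sum] at e1
    have e2 : s • d a ∈ N ⊔ m • N' := by
      rw [eq_sub_of_add_eq e1]
      refine sub_mem (Submodule.sum_mem _ fun i _ => ?_) (hm' _ hc _)
      rw [Derivation.leibniz]
      exact add_mem (Submodule.mem_sup_left (N.smul_mem _ (Submodule.subset_span ⟨i, rfl⟩)))
        (hm' _ (hx i) _)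
    have e3 : d a = algebraMap ℂ A l⁻¹ • (s • d a - (s - algebraMap ℂ A l) • d a) := by
      rw [← sub_smul, sub_sub_cancel, smul_smul, ← map_mul, inv_mul_cancel₀ hl0, map_one, one_smul]
    rw [SetLike.mem_coe, e3]
    exact Submodule.smul_mem _ _ (sub_mem e2 (hm' _ hl _))
  obtain ⟨r, hr, hrN⟩ := Submodule.exists_sub_one_mem_and_smul_le_of_fg_of_le_sup
    (IsNoetherian.noetherian N') le_rfl hN
  have hrm : r ∉ m := fun h => hm.ne_top ((Ideal.eq_top_iff_one _).2 (by simpa using sub_mem h hr))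
  have hr0 : (r : F) ≠ 0 := fun h => hrm (by rw [show r = 0 from Subtype.ext h]; exact zero_mem _)
  let M : Matrix (Fin 4) (Fin 4) F := fun k i => D k (x i)
  have hc : ∀ b ∈ A, ∃ c : Fin 4 → A, (r : F) • (fun k => D k b) = M.mulVec fun i => c i := by
    intro b hb
    have : r • d ⟨b, hb⟩ ∈ N :=
      hrN (Submodule.smul_mem_pointwise_smul _ _ _ (Submodule.subset_span ⟨_, rfl⟩))
    obtain ⟨c, hc⟩ := (Submodule.mem_span_range_iff_exists_fun _).1 this
    refine ⟨c, funext fun k => ?_⟩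
    have := congr(($hc k : F))
    simp only [Fin.sum_univ_four] at this
    simp only [Matrix.mulVec, dotProduct, Fin.sum_univ_four, M, mul_comm (D k _)]
    exact this.symm
  have hdet : M.det ≠ 0 := by
    intro h
    obtain ⟨v, hv, hv0⟩ := Matrix.exists_vecMul_eq_zero_iff.2 h
    refine hv (der_indep A D hcr hne v fun b hb => ?_)
    obtain ⟨c, hc⟩ := hc b hb
    have := congr(v ⬝ᵥ $hc)
    rw [Matrix.dotProduct_mulVec, hv0, zero_dotProduct, dotProduct_smul, smul_eq_zero] at this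
    exact this.resolve_left hr0
  have hC : ∀ j k, ((r : F) • M⁻¹) j k ∈ A := fun j => hcr _ fun b hb => by
    obtain ⟨c, hc⟩ := hc b hb
    have := congr(M⁻¹.mulVec $hc j)
    rw [Matrix.mulVec_mulVec, Matrix.nonsing_inv_mul _ (IsUnit.mk0 _ hdet), Matrix.one_mulVec,
      Matrix.mulVec_smul, ← Matrix.smul_mulVec] at this
    have h2 := (c j).2
    rw [← this] at h2
    exact h2
  let C : Matrix (Fin 4) (Fin 4) A := fun j k => ⟨_, hC j k⟩
  let M' : Matrix (Fin 4) (Fin 4) A := fun k i => resD A (D k) (hD k) (x i)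
  have hCM : C * M' = r • (1 : Matrix (Fin 4) (Fin 4) A) := by
    apply Matrix.map_injective (f := A.val) Subtype.val_injective
    have e1 : C.map A.val = (r : F) • M⁻¹ := rfl
    have e2 : M'.map A.val = M := rfl
    change (C * M').map A.val = (r • (1 : Matrix (Fin 4) (Fin 4) A)).map A.val
    rw [Matrix.map_mul, e1, e2, Matrix.smul_mul, Matrix.nonsing_inv_mul _ (IsUnit.mk0 _ hdet)]
    ext i j
    by_cases h : i = j <;> simp [h]
  have hd : M'.det ∈ m := by
    rw [Matrix.det_succ_row_zero]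
    exact Ideal.sum_mem _ fun j _ =>
      Ideal.mul_mem_right _ _ (Ideal.mul_mem_left _ _ (hIm (h0 _)))
  have := congr(($hCM).det)
  rw [Matrix.det_mul, Matrix.det_smul, Matrix.det_one, mul_one] at this
  exact hrm (hm.isPrime.mem_of_pow_mem _ (this ▸ Ideal.mul_mem_left _ _ hd))

/-- The abstract gluing theorem. -/
theorem abstract (htr : trdeg ℂ F = 4) {ι : Type} (B : ι → Subalgebra ℂ F) (A0 : Subalgebra ℂ F)
    (U1 U2 : F) (h1 : U1 ≠ 0) (h2 : U2 ≠ 0) (g : Set F) (hg : g.Finite)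
    (hA0 : A0 = adjoin ℂ (g ∪ {U1, U1⁻¹, U2, U2⁻¹})) (hle : ∀ c, A0 ≤ B c)
    (x : ι → F) (hx : ∀ c, x c ∈ A0) (hx0 : ∀ c, x c ≠ 0) (hxi : ∀ c, (x c)⁻¹ ∈ B c)
    (hloc : ∀ c, ∀ a ∈ B c, ∃ n, x c ^ n * a ∈ A0)
    (hfrac : ∀ f, ∃ b ∈ A0, b ≠ 0 ∧ b * f ∈ A0)
    (hval : ∀ O : ValuationSubring F, (∀ a ∈ A0, a ∈ O) → (∀ c, O.valuation (x c) < 1) →
      ∀ a ∈ g, O.valuation a < 1)
    (D : Fin 4 → Derivation ℂ F F) (hD : ∀ k c, ∀ a ∈ B c, D k a ∈ B c)
    (hcr : ∀ c (a : Fin 4 → F), (∀ b ∈ B c, ∑ k, a k * D k b ∈ B c) → ∀ k, a k ∈ B c)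
    (hspan : ∀ δ : Derivation ℂ F F, ∃ a : Fin 4 → F, ∀ f, δ f = ∑ k, a k * D k f)
    (O : ValuationSubring F) (hO : ∀ a ∈ A0, a ∈ O) (hO1 : ∃ f, f ∉ O)
    (hO2 : ∀ f ∈ O, O.valuation (D 0 f) < 1) :
    ∃ (A : Type) (_ : CommRing A) (_ : IsDomain A) (_ : Algebra ℂ A), FiniteType ℂ A ∧
      Module.Free A (Derivation ℂ A A) ∧ ¬ IsRegularRing A ∧ ¬ Smooth ℂ A := by
  let A : Subalgebra ℂ F := ⨅ c, B c
  have hm : ∀ a, a ∈ A ↔ ∀ c, a ∈ B c := fun a => Algebra.mem_iInf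
  have hle' : A0 ≤ A := le_iInf hle
  obtain ⟨hft, hdim, hint⟩ := fin_part htr A0 A U1 U2 h1 h2 g hg hA0 hle' x hx
    (fun a ha c => hloc c a ((hm a).1 ha c)) hfrac hval
  have hAO : ∀ a ∈ A, a ∈ O := fun a ha => by
    let j : A0 →+* O.toSubring := A0.val.toRingHom.codRestrict _ fun a => hO _ a.2
    have : IsIntegral O.toSubring a :=
      IsIntegral.map_of_comp_eq j (RingHom.id F) (by ext; rfl) (hint a ha)
    exact LocalSubring.mem_of_isMax_of_isIntegral O.isMax_toLocalSubring this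
  have hne : ∃ f, f ∉ A := hO1.imp fun f hf h => hf (hAO f h)
  have hD' : ∀ k, ∀ a ∈ A, D k a ∈ A := fun k a ha =>
    (hm _).2 fun c => hD k c a ((hm a).1 ha c)
  have hcr' : ∀ a : Fin 4 → F, (∀ b ∈ A, ∑ k, a k * D k b ∈ A) → ∀ k, a k ∈ A := by
    intro a ha k
    refine (hm _).2 fun c => hcr c a (fun b hb => ?_) k
    obtain ⟨n, hn⟩ := hloc c b hb
    have e1 := (hm _).1 (ha _ (hle' hn)) c
    have e2 := (hm _).1 (ha _ (hle' (pow_mem (hx c) n))) c
    have : ∑ k, a k * D k b = (x c)⁻¹ ^ n *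
        (∑ k, a k * D k (x c ^ n * b) - b * ∑ k, a k * D k (x c ^ n)) := by
      have := hx0 c
      simp only [Derivation.leibniz, Fin.sum_univ_four, smul_eq_mul, inv_pow]
      field_simp
      ring
    rw [this]
    exact mul_mem (pow_mem (hxi c) n) (sub_mem e1 (mul_mem hb e2))
  let j : A →+* O := A.val.toRingHom.codRestrict O.toSubring fun a => hAO _ a.2
  obtain ⟨b, hb⟩ := der_free A (fun f => (hfrac f).imp fun b h => ⟨hle' h.1, h.2.1, hle' h.2.2⟩)
    D hD' hcr' hspan hne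
  have hI := Ideal.comap_ne_top j (IsLocalRing.maximalIdeal.isMaximal O).ne_top
  have h0 : ∀ a : A, resD A (D 0) (hD' 0) a ∈ (IsLocalRing.maximalIdeal O).comap j := fun a =>
    (O.valuation_lt_one_iff _).2 (hO2 _ (hAO _ a.2))
  exact ⟨A, inferInstance, inferInstance, inferInstance, hft, .of_basis b,
    nonreg A hdim D hD' hcr' hne _ hI h0, nonsmooth b _ hI (hb ▸ h0)⟩

end Vale.Agent.P266
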