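import Vale.Agent.P266.Ctx

/-! Tools for the four charts. -/

namespace Vale.Agent.P266
open Matrix Algebra

variable {F : Type} [Field F] [CharZero F]

def dl : List ℚ → List ℚ
  | c :: d :: l => (c * (l.length + 1)) :: dl (d :: l)
  | _ => []

lemma dl_len : ∀ (c : ℚ) (l : List ℚ), (dl (c :: l)).length = l.length
  | _, [] => rfl
  | _, d :: l => by simp [dl, dl_len d l]

lemma der_hp [Algebra ℂ F] (D : Derivation ℂ F F) (V : F) :
    ∀ l, D (hp 1 V l) = hp 1 V (dl l) * D V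
  | [] => by simp [hp, dl]
  | [c] => by simp [hp, dl, der_rat]
  | c :: d :: l => by
    rw [hp, dl, hp.eq_2 _ _ (c * _), dl_len, one_mul, map_add, der_hp D V (d :: l), D.leibniz,
      der_rat, D.leibniz_pow]
    simp only [List.length_cons, smul_eq_mul, nsmul_eq_mul, Nat.add_sub_cancel]
    push_cast; ring

omit [CharZero F] in
lemma asm {B : Subring F} {T z η q τ s r β q' A dV : F} (a c : ℤ)
    (k : ℕ) (J ew : ℚ) (m0 m1 : ℕ) (hq : q ≠ 0) (hτ : τ ≠ 0)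
    (oA : ∃ R ∈ B, A = J * (q ^ m0 * τ ^ m1 * r) + η * R)
    (oV : ∃ R ∈ B, dV = q ^ (m0 + 1) * τ ^ (m1 + 1) * s + η * R)
    (hid : J * r = k * q' * τ * s + ew * q * s - β * q) (hq' : q' ∈ B)
    (h1 : T * z * q ^ (m0 + 1) * τ ^ m1 * (a * (ew * s - β) + c * s) ∈ B) (h2 : T * z * η ∈ B)
    (h3 : T * z * η / q ∈ B) (h4 : c * (T * z * η / τ) ∈ B) :
    T * (z * (a * (A - k * (q' * dV / q)) + c * (dV / τ))) ∈ B := by
  obtain ⟨R1, r1, rfl⟩ := oA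
  obtain ⟨R2, r2, rfl⟩ := oV
  have := add_mem (sub_mem (add_mem h1 (mul_mem h2 (mul_mem (intCast_mem B a) r1)))
    (mul_mem h3 (mul_mem (mul_mem (intCast_mem B a) (natCast_mem B k)) (mul_mem hq' r2))))
    (mul_mem h4 r2)
  convert this using 1
  field_simp
  linear_combination (T * z * a * q ^ (m0 + 1) * τ ^ (m1 + 1)) * hid

omit [CharZero F] in
lemma On.mem {y V H h e : F} {n : ℕ} (o : On y V n H h e) {S : Subring F}
    (a : ∀ q : ℚ, (q : F) ∈ S) (c : y ∈ S) (d : V ∈ S) : ∃ R ∈ S, H = h + e * R :=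
  let ⟨R, r, e⟩ := o; ⟨R, r.mem a c d, e⟩

omit [CharZero F] in
lemma dlog_fin {y V η w f Q h : F} {n : ℕ} (J x : ℚ) (hη : η ≠ 0) (h1 : w = η * f * Q)
    (hf : f = J + η * (y - x)) (hQ : Hm y V (n + 1) Q) (o : On y V n Q h η) :
    On y V (n + 2) (w / η) (J * h) η := by
  obtain ⟨R, r, e⟩ := o
  refine ⟨J * R + (y - x) * Q, ((r.cmul J).mono (by omega)).add ((Hm.lin x).mul' hQ (by omega)), ?_⟩
  rw [h1, mul_assoc, mul_div_cancel_left₀ _ hη, hf]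
  linear_combination J * e

omit [CharZero F] in
lemma Hm.inf {y V f : F} {n : ℕ} (h : Hm y V n f) (hy : y ≠ 0) {S : Subring F}
    (a : ∀ q : ℚ, (q : F) ∈ S) (c : y⁻¹ ∈ S) (d : V / y ∈ S) : f / y ^ n ∈ S := by
  have := h S y⁻¹ a c (by rw [inv_mul_cancel₀ hy]; exact one_mem _) (by rwa [inv_mul_eq_div])
  rwa [inv_pow, inv_mul_eq_div] at this

omit [CharZero F] in
lemma hp_div {z V t : F} (ht : t ≠ 0) (c : ℚ) (l : List ℚ) :
    hp z V (c :: l) / t ^ l.length = hp (z / t) (V / t) (c :: l) := by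
  rw [div_eq_iff (pow_ne_zero _ ht), mul_comm, ← hp_scale, mul_div_cancel₀ _ ht,
    mul_div_cancel₀ _ ht]

omit [CharZero F] in
lemma hp_y {y V : F} (hy : y ≠ 0) (c : ℚ) (l : List ℚ) :
    hp y V (c :: l) = y ^ l.length * hp 1 (V / y) (c :: l) := by
  rw [← hp_scale, mul_one, mul_div_cancel₀ _ hy]

omit [CharZero F] in
lemma line0 {y V P Q X Z a b : F} {n : ℕ} (hy : y ≠ 0) {S : Subring F} (hS : ∀ q : ℚ, (q : F) ∈ S)
    (c : y⁻¹ ∈ S) (d : V / y ∈ S) (hQ : Hm y V (n + 1) Q) (oP : On y V (n + 3) P a 1)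
    (oQ : On y V n Q b 1) (ha : a = y ^ (n + 4) * Z + y ^ (n + 3) * V * X)
    (hb : b = y ^ (n + 1) * X) :
    (∃ R ∈ S, -((y - y1) * (y - y2) * Q) / y ^ (n + 3) = (-1 : ℚ) * X + y⁻¹ * R) ∧
    ∃ R ∈ S, (P / y - V / y * ((y - y1) * (y - y2) * Q)) / y ^ (n + 3) = Z + y⁻¹ * R := by
  obtain ⟨RP, rP, eP⟩ := oP
  obtain ⟨RQ, rQ, eQ⟩ := oQ
  have m1 := rP.inf hy hS c d
  have m2 := rQ.inf hy hS c d
  have m3 := mul_mem (sub_mem (add_mem (hS y1) (hS y2)) (mul_mem (mul_mem (hS y1) (hS y2)) c))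
    (hQ.inf hy hS c d)
  refine ⟨⟨_, sub_mem m3 m2, ?_⟩, ⟨_, add_mem m1 (mul_mem d (sub_mem m3 m2)), ?_⟩⟩
  · rw [eQ, hb]; push_cast; field_simp; ring
  · rw [eQ, eP, ha, hb]; field_simp; ring

variable [Algebra ℂ F]

omit [CharZero F] in
lemma dz (D : Derivation ℂ F F) {η q τ : F} (h1 : η ≠ 0) (h2 : q ≠ 0) (h3 : τ ≠ 0) (a c : ℤ)
    (k : ℕ) : D ((η / q ^ k) ^ a * τ ^ c) =
      (η / q ^ k) ^ a * τ ^ c * (a * (D η / η - k * (D q / q)) + c * (D τ / τ)) := by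
  have h4 : η / q ^ k ≠ 0 := div_ne_zero h1 (pow_ne_zero _ h2)
  have h5 : D (q ^ k) = k * q ^ k * (D q / q) := by
    rw [← zpow_natCast, D.leibniz_zpow, zpow_sub_one₀ h2]
    simp only [smul_eq_mul, zsmul_eq_mul]; push_cast; ring
  rw [D.leibniz, D.leibniz_zpow, D.leibniz_zpow, zpow_sub_one₀ h3, zpow_sub_one₀ h4, D.leibniz_div,
    h5]
  simp only [smul_eq_mul, zsmul_eq_mul]
  generalize (η / q ^ k) ^ a = w
  field_simp
  ring

omit [CharZero F] in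
lemma du (D : Derivation ℂ F F) {η q : F} (h1 : η ≠ 0) (h2 : q ≠ 0) (k : ℕ) :
    D (η / q ^ k) = η / q ^ k * (D η / η - k * (D q / q)) := by
  simpa using dz D h1 h2 one_ne_zero 1 0 k

namespace Ctx
variable (c : Ctx F)

lemma dzm (D : Derivation ℂ F F) (i j t : Fin 12) (a d : ℤ) (k : ℕ) :
    D (c.m (a • (ev i - k • ev j) + d • ev t)) = c.m (a • (ev i - k • ev j) + d • ev t) *
      (a * (D (c.b i) / c.b i - k * (D (c.b j) / c.b j)) + d * (D (c.b t) / c.b t)) := by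
  simp only [m, mon_add c.nz, mon_sub c.nz, mon_nsmul, mon_zsmul, mon_ev]
  exact dz D (c.nz i) (c.nz j) (c.nz t) a d k

lemma tl (k : Fin 4) (W : Derivation ℂ F F) (iT i j t : Fin 12) (a d : ℤ) (kk m0 m1 ε : ℕ)
    (J ew : ℚ) (Lq Ls Lr Lb : List ℚ) (g : F) {n n' : ℕ} (hq : c.b j = hp 1 c.V Lq)
    (hτ : W (c.b t) = W c.V)
    (oA : On c.y c.V n (W (c.b i) / c.b i) (J * (c.b j ^ m0 * c.b t ^ m1 * hp 1 c.V Lr)) (c.b i))
    (oV : On c.y c.V n' (W c.V) (c.b j ^ (m0 + 1) * c.b t ^ (m1 + 1) * hp 1 c.V Ls) (c.b i))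
    (hid : J * hp 1 c.V Lr = kk * hp 1 c.V (dl Lq) * c.b t * hp 1 c.V Ls +
      ew * c.b j * hp 1 c.V Ls - hp 1 c.V Lb * c.b j)
    (hg : a * (ew * hp 1 c.V Ls - hp 1 c.V Lb) + d * hp 1 c.V Ls = c.b t ^ ε * g)
    (gB : g ∈ c.B k) (z : Vc) (hz : z = a • (ev i - kk • ev j) + d • ev t)
    (d0 : InC k (ev 2) ∧ InC k (ev 7) ∧ InC k (ev iT + z + (m0 + 1) • ev j + (m1 + ε) • ev t) ∧
      InC k (ev iT + z + ev i) ∧ InC k (ev iT + z + ev i - ev j) ∧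
      InC k (ev iT + z + ev i - ev t)) : c.b iT * W (c.m z) ∈ c.B k := by
  obtain ⟨dy, dV, d1, d2, d3, d4⟩ := d0
  have hQ := rat_mem (c.B k)
  have my := c.memB _ dy
  have mV := c.memB _ dV
  have m1 := mul_mem (c.memB _ d1) gB
  have m2 := c.memB _ d2
  have m3 := c.memB _ d3
  have m4 := mul_mem (intCast_mem (c.B k) d) (c.memB _ d4)
  simp only [m, mon_add c.nz, mon_sub c.nz, mon_nsmul, mon_ev] at my mV m1 m2 m3 m4
  have e := c.dzm W i j t a d kk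
  rw [← hz, hτ, show W (c.b j) = _ from hq ▸ der_hp W c.V Lq] at e
  rw [e]
  refine asm (B := (c.B k).toSubring) a d kk J ew m0 _ (c.nz j) (c.nz t) (oA.mem hQ my mV)
    (oV.mem hQ my mV) hid (hp_mem hQ (one_mem _) mV _) ?_ m2 m3 m4
  rw [hg, Subalgebra.mem_toSubring]
  convert m1 using 1
  ring

lemma Wb (W : Derivation ℂ F F) : W (c.b 0) = W c.y ∧ W (c.b 1) = W c.y ∧ W (c.b 8) = W c.V ∧
    W (c.b 6) = W c.V := by
  refine ⟨?_, ?_, ?_, ?_⟩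
  · change W (c.y - y1) = _
    rw [map_sub, der_rat, sub_zero]
  · change W (c.y - y2) = _
    rw [map_sub, der_rat, sub_zero]
  · change W (hp 1 c.V Lt2) = _
    rw [der_hp]; simp [Lt2, dl, hp]
  · change W (hp 1 c.V Lqp) = _
    rw [der_hp]; simp [Lqp, dl, hp]

end Ctx

end Vale.Agent.P266
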