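import Vale.Agent.P266.Chart1

/-! The four charts. -/

namespace Vale.Agent.P266
open Matrix Algebra

variable {F : Type} [Field F] [CharZero F] [Algebra ℂ F]

namespace Ctx
variable (c : Ctx F)

/-- The conclusion for one chart. -/
def Fine (k : Fin 4) : Prop := (∀ t, ∀ a ∈ c.B k, c.D t a ∈ c.B k) ∧ ∀ a : Fin 4 → F,
  (∀ b ∈ c.B k, ∑ t, a t * c.D t b ∈ c.B k) → ∀ t, a t ∈ c.B k

lemma aff {S : Subring F} (hQ : ∀ q : ℚ, (q : F) ∈ S) (hy : c.y ∈ S) (hV : c.V ∈ S) (i : Fin 12)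
    (h : i ≠ 10 ∧ i ≠ 11) : c.m (ev i) ∈ S := by
  obtain ⟨n, hn⟩ := c.Hb i h.1 h.2
  rw [m, mon_ev]; exact hn.mem hQ hy hV

lemma gt {S : Subring F} (hQ : ∀ q : ℚ, (q : F) ∈ S) (hy : c.y ∈ S) (hV : c.V ∈ S)
    {i j t : Fin 12} {M D : ℕ} (o : On c.y c.V 104 c.p.G (kp * c.b j ^ M * c.b t ^ D) (c.b i))
    (h : c.m (ev i - M • ev j - D • ev t) ∈ S) : c.m (ev 9 - M • ev j - D • ev t) ∈ S := by
  obtain ⟨R, r, e⟩ := o.mem hQ hy hV
  have := add_mem (hQ kp) (mul_mem h r)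
  simp only [m, mon_sub c.nz, mon_nsmul, mon_ev, show c.b 9 = _ from e] at this ⊢
  convert this using 1
  have := c.nz j
  have := c.nz t
  field_simp

lemma clo1 : c.Clo 1 6 0 := by
  intro S hQ (hz : c.m ze1 ∈ S) (hx : c.m xi1 ∈ S)
  have hV : c.V ∈ S := by
    have := mem3 c.nz hz hx hx 3 1 0 (ev 7) (by decide +kernel)
    rwa [mon_ev] at this
  have hq : c.m (ev 4) ∈ S := by rw [m, mon_ev]; exact hp_mem hQ (one_mem _) hV _
  have hy : c.y ∈ S := by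
    have := mem3 c.nz hz hx hq 265 88 30 (ev 0) (by decide +kernel)
    rw [mon_ev] at this
    simpa using add_mem (show c.y - y1 ∈ S from this) (hQ y1)
  have a := c.aff hQ hy hV
  exact all12 (fun _ _ => hx) (fun _ _ => a 1 (by decide)) (fun _ _ => a 2 (by decide))
    (fun _ _ => c.gt hQ hy hV (i := 0) c.p.rG.2.2.1
      (mem3 c.nz hz hx hq 250 83 5 _ (by decide +kernel)))
    (fun h _ => (h rfl).elim) (fun _ h => (h rfl).elim) (fun _ _ => hz) (fun _ _ => hq)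
    (fun _ _ => a 3 (by decide)) (fun _ _ => a 5 (by decide)) (fun _ _ => a 6 (by decide))
    (fun _ _ => a 8 (by decide))

lemma clo2 : c.Clo 2 6 0 := by
  intro S hQ (hz : c.m ze2 ∈ S) (hx : c.m xi2 ∈ S)
  have hV : c.V ∈ S := by
    have := mem3 c.nz hz hx hx 13 3 0 (ev 8) (by decide +kernel)
    rw [mon_ev] at this
    simpa [hp, Lt2] using sub_mem (show hp 1 c.V Lt2 ∈ S from this) (hQ 105)
  have hq : c.m (ev 5) ∈ S := by rw [m, mon_ev]; exact hp_mem hQ (one_mem _) hV _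
  have hy : c.y ∈ S := by
    have := mem3 c.nz hz hx hq 1296 299 54 (ev 1) (by decide +kernel)
    rw [mon_ev] at this
    simpa using add_mem (show c.y - y2 ∈ S from this) (hQ y2)
  have a := c.aff hQ hy hV
  exact all12 (fun _ _ => hx) (fun _ _ => a 0 (by decide)) (fun _ _ => a 2 (by decide))
    (fun _ _ => c.gt hQ hy hV (i := 1) c.p.rG.2.2.2.1
      (mem3 c.nz hz hx hq 1283 296 2 _ (by decide +kernel)))
    (fun h _ => (h rfl).elim) (fun _ h => (h rfl).elim) (fun _ _ => hz) (fun _ _ => hq)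
    (fun _ _ => a 3 (by decide)) (fun _ _ => a 4 (by decide)) (fun _ _ => a 6 (by decide))
    (fun _ _ => a 7 (by decide))

lemma clop : c.Clo 0 0 10 := by
  intro S hQ (hz : c.m up ∈ S) (hx : c.m (ev 7) ∈ S)
  have hV : c.V ∈ S := by rwa [m, mon_ev] at hx
  have hq : c.m (ev 6) ∈ S := by rw [m, mon_ev]; exact hp_mem hQ (one_mem _) hV _
  have hy : c.y ∈ S := by
    have := mem3 c.nz hz hx hq 1 0 2835 (ev 2) (by decide +kernel)
    rwa [mon_ev] at this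
  have a := c.aff hQ hy hV
  have g := c.gt hQ hy hV (i := 2) (j := 6) (t := 7) (M := 105) (D := 0)
    (by have o := c.p.rG.2.1; rw [pow_zero] at o ⊢; exact o)
    (mem3 c.nz hz hx hq 1 0 2730 _ (by decide +kernel))
  rw [zero_smul, sub_zero] at g
  exact all12 (fun _ _ => hz) (fun _ _ => a 0 (by decide)) (fun _ _ => a 1 (by decide))
    (fun _ _ => g) (fun h _ => (h rfl).elim) (fun _ h => (h rfl).elim) (fun _ _ => hq)
    (fun _ _ => a 3 (by decide)) (fun _ _ => a 4 (by decide)) (fun _ _ => a 5 (by decide))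
    (fun _ _ => hx) (fun _ _ => a 8 (by decide))

lemma mdv (i : Fin 12) (n : ℕ) : c.m (dv i n) = c.b i / c.y ^ n := by
  simp only [dv, m, mon_sub c.nz, mon_nsmul, mon_ev]; rfl

lemma mq0 : c.m (dv 3 5) = hp 1 (c.V / c.y) Lq0 := by
  have : c.y ≠ 0 := c.nz 2
  rw [mdv, div_eq_iff (pow_ne_zero _ this), mul_comm]; exact hp_y this _ _

lemma minv : c.m (-ev 2) = c.y⁻¹ := by rw [m, mon_neg, mon_ev]; rfl

lemma inf {S : Subring F} (hQ : ∀ q : ℚ, (q : F) ∈ S) (hy : c.y⁻¹ ∈ S) (hV : c.V / c.y ∈ S) :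
    c.m (dv 0 1) ∈ S ∧ c.m (dv 1 1) ∈ S ∧ c.m (dv 3 5) ∈ S ∧ c.m (dv 4 4) ∈ S ∧ c.m (dv 5 2) ∈ S ∧
    c.m (dv 6 1) ∈ S ∧ c.m (dv 7 1) ∈ S ∧ c.m (dv 8 1) ∈ S ∧
    ∃ R ∈ S, c.m (dv 9 105) = kp * c.m (dv 3 5) ^ 21 * 1 ^ 0 + c.y⁻¹ * R := by
  have h : c.y ≠ 0 := c.nz 2
  simp only [mdv]
  refine ⟨(Hm.lin _).inf h hQ hy hV, (Hm.lin _).inf h hQ hy hV,
    (Hm_hp Hm.fst _ _ le_rfl).inf h hQ hy hV, (Hm_hp Hm.one _ _ le_rfl).inf h hQ hy hV,
    (Hm_hp Hm.one _ _ le_rfl).inf h hQ hy hV, (Hm_hp Hm.one _ _ le_rfl).inf h hQ hy hV,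
    Hm.snd.inf h hQ hy hV, (Hm_hp Hm.one _ _ le_rfl).inf h hQ hy hV, ?_⟩
  obtain ⟨R, r, e⟩ := c.p.rG.2.2.2.2
  refine ⟨_, r.inf h hQ hy hV, ?_⟩
  rw [show c.b 9 = _ from e, show hp c.y c.V Lq0 = c.b 3 from rfl]
  field_simp

lemma clo0 : c.Clo 3 10 0 := by
  intro S hQ (hx : c.m (dv 7 1) ∈ S) (hz : c.m u0 ∈ S)
  have hV : c.V / c.y ∈ S := by rwa [mdv, pow_one] at hx
  have hq : c.m (dv 3 5) ∈ S := by rw [mq0]; exact hp_mem hQ (one_mem _) hV _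
  have hy : c.y⁻¹ ∈ S := c.minv ▸ mem3 c.nz hz hx hq 1 0 84 (-ev 2) (by decide +kernel)
  obtain ⟨a0, a1, a3, a4, a5, a6, a7, a8, R, r, e⟩ := c.inf hQ hy hV
  have g : c.m g0 ∈ S := by
    have := add_mem (hQ kp) (mul_mem
      (mem3 c.nz hz hx hq 1 0 63 (-ev 2 - 21 • dv 3 5) (by decide +kernel)) r)
    rw [mon_sub c.nz, mon_nsmul, show mon c.b (-ev 2) = _ from c.minv] at this
    rw [g0, m, mon_sub c.nz, mon_nsmul, show mon c.b _ = _ from e]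
    convert this using 1
    have := mon_ne c.nz (dv 3 5)
    field_simp
  exact all12 (fun _ _ => hz) (fun _ _ => a0) (fun _ _ => a1) (fun _ _ => g)
    (fun h _ => (h rfl).elim) (fun _ h => (h rfl).elim) (fun _ _ => a3) (fun _ _ => a4)
    (fun _ _ => a5) (fun _ _ => a6) (fun _ _ => a7) (fun _ _ => a8)

end Ctx

end Vale.Agent.P266
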