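import Vale.Agent.P266.Chart2

/-! The vector fields on the four charts. -/

namespace Vale.Agent.P266
open Matrix

def Lb11 : List ℚ := [625 / 3, 0]
def Lb21 : List ℚ := [625 / 3, -23750 / 713]
def Lb12 : List ℚ := [2700 / 13, 283500 / 13]
def Lb22 : List ℚ := [2700 / 13, 29251800 / 1339]

variable {F : Type} [Field F] [CharZero F] [Algebra ℂ F]

namespace Ctx
variable (c : Ctx F)

lemma gmem {k : Fin 4} (h : InC k (ev 7)) (a d : ℤ) (ew : ℚ) (Ls Lb : List ℚ) :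
    a * (ew * hp 1 c.V Ls - hp 1 c.V Lb) + d * hp 1 c.V Ls ∈ c.B k := by
  have hV := c.memB _ h
  rw [m, mon_ev] at hV
  have hQ := rat_mem (c.B k)
  exact add_mem (mul_mem (intCast_mem _ _) (sub_mem (mul_mem (hQ _) (hp_mem hQ (one_mem _) hV _))
    (hp_mem hQ (one_mem _) hV _))) (mul_mem (intCast_mem _ _) (hp_mem hQ (one_mem _) hV _))

lemma fine1 : c.Fine 1 := by
  have A := fun (W : Derivation ℂ F F) (Q h : F) (n : ℕ)
      (hW : W c.y = c.y * (c.y - y1) * (c.y - y2) * Q) =>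
    dlog_fin (y := c.y) (V := c.V) (w := W (c.b 0)) (f := c.y * (c.y - y2)) (Q := Q) (h := h)
      (n := n) (y1 * (y1 - y2)) (y2 - y1) (c.nz 0)
      (by rw [(c.Wb W).1, hW, show c.b 0 = c.y - y1 from rfl]; ring)
      (by rw [show c.b 0 = c.y - y1 from rfl]; push_cast; ring)
  have A1 := A _ _ _ _ c.W1y c.p.rQ1.1 c.p.rQ1.2.2.1
  have A2 := A _ _ _ _ c.W2y c.p.rQ2.1 c.p.rQ2.2.2.1
  have V1 := c.W1V ▸ c.p.rP1.2.2.1
  have V2 := c.W2V ▸ c.p.rP2.2.2.1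
  have i1 : (y1 * (y1 - y2) : ℚ) * hp 1 c.V Lr11 = (30 : ℕ) * hp 1 c.V (dl Lq1) * c.V * hp 1 c.V Ls1 +
      (265 / 3 : ℚ) * hp 1 c.V Lq1 * hp 1 c.V Ls1 - hp 1 c.V Lb11 * hp 1 c.V Lq1 := by
    simp only [hp, dl, Lr11, Lb11, Lq1, Ls1, y1, y2, List.length]; push_cast; ring
  have i2 : (y1 * (y1 - y2) : ℚ) * hp 1 c.V Lr21 = (30 : ℕ) * hp 1 c.V (dl Lq1) * c.V * hp 1 c.V Ls21 +
      (265 / 3 : ℚ) * hp 1 c.V Lq1 * hp 1 c.V Ls21 -
        hp 1 c.V Lb21 * hp 1 c.V Lq1 := by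
    simp only [hp, dl, Lr21, Lb21, Lq1, Ls21, y1, y2, List.length]; push_cast; ring
  have g := c.gmem (k := 1) (by decide +kernel)
  have o : ∀ a b : F, a = b ^ 0 * a := by simp
  refine c.chart c.clo1 (by decide) (by decide)
    (c.tl 1 c.W1 10 0 4 7 1 (-88) 30 12 2 0 _ _ _ _ _ _ _ rfl rfl A1 V1 i1 (o ..)
      (g 1 (-88) (265 / 3) Ls1 Lb11) ze1 rfl (by decide +kernel))
    (c.tl 1 c.W1 10 0 4 7 (-3) 265 30 12 2 1 _ _ _ _ _ _ (625 : ℚ) rfl rfl A1 V1 i1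
      (by simp only [hp, Ls1, Lb11, List.length, show c.b 7 = c.V from rfl]; push_cast; ring)
      (rat_mem (c.B 1) _) xi1 rfl (by decide +kernel))
    (c.tl 1 c.W2 11 0 4 7 1 (-88) 30 11 2 0 _ _ _ _ _ _ _ rfl rfl A2 V2 i2 (o ..)
      (g 1 (-88) (265 / 3) Ls21 Lb21) ze1 rfl (by decide +kernel))
    (c.tl 1 c.W2 11 0 4 7 (-3) 265 30 11 2 0 _ _ _ _ _ _ _ rfl rfl A2 V2 i2 (o ..)
      (g (-3) 265 (265 / 3) Ls21 Lb21) xi1 rfl (by decide +kernel))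
    (ev 10 + ev 11 + ze1 + xi1 + ev 2 + ev 1 + ev 9 - ev 7) (by decide +kernel) ?_
  have z := fun W => c.dzm W 0 4 7 1 (-88) 30
  have x := fun W => c.dzm W 0 4 7 (-3) 265 30
  have q := fun W : Derivation ℂ F F => show W (c.b 4) = _ from der_hp W c.V Lq1
  change c.T1 * c.W1 (c.m ze1) * (c.T2 * c.W2 (c.m xi1)) -
    c.T1 * c.W1 (c.m xi1) * (c.T2 * c.W2 (c.m ze1)) = _
  simp only [m, mon_add c.nz, mon_sub c.nz, mon_ev]
  rw [show c.W1 (mon c.b ze1) = mon c.b ze1 * _ from z _,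
    show c.W2 (mon c.b ze1) = mon c.b ze1 * _ from z _,
    show c.W1 (mon c.b xi1) = mon c.b xi1 * _ from x _,
    show c.W2 (mon c.b xi1) = mon c.b xi1 * _ from x _]
  have h0 : c.y - y1 ≠ 0 := c.nz 0
  have h4 := c.nz 4
  have h7 : c.V ≠ 0 := c.nz 7
  simp only [q, (c.Wb _).1, c.W1y, c.W2y]
  simp only [show c.b 7 = c.V from rfl, show c.b 0 = c.y - y1 from rfl, c.W1V, c.W2V,
    show c.b 1 = c.y - y2 from rfl, show c.b 2 = c.y from rfl, show c.b 10 = c.T1 from rfl,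
    show c.b 11 = c.T2 from rfl, show c.b 9 = c.p.P1 * c.p.Q2 - c.p.P2 * c.p.Q1 from rfl]
  push_cast
  field_simp
  ring

lemma fine2 : c.Fine 2 := by
  have A := fun (W : Derivation ℂ F F) (Q h : F) (n : ℕ)
      (hW : W c.y = c.y * (c.y - y1) * (c.y - y2) * Q) =>
    dlog_fin (y := c.y) (V := c.V) (w := W (c.b 1)) (f := c.y * (c.y - y1)) (Q := Q) (h := h)
      (n := n) (y2 * (y2 - y1)) (y1 - y2) (c.nz 1)
      (by rw [(c.Wb W).2.1, hW, show c.b 1 = c.y - y2 from rfl]; ring)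
      (by rw [show c.b 1 = c.y - y2 from rfl]; push_cast; ring)
  have A1 := A _ _ _ _ c.W1y c.p.rQ1.1 c.p.rQ1.2.2.2.1
  have A2 := A _ _ _ _ c.W2y c.p.rQ2.1 c.p.rQ2.2.2.2.1
  have V1 := c.W1V ▸ c.p.rP1.2.2.2.1
  have V2 := c.W2V ▸ c.p.rP2.2.2.2.1
  have i1 : (y2 * (y2 - y1) : ℚ) * hp 1 c.V Lr12 =
      (54 : ℕ) * hp 1 c.V (dl Lq2) * hp 1 c.V Lt2 * hp 1 c.V Ls1 + (1296 / 13 : ℚ) * hp 1 c.V Lq2 *
        hp 1 c.V Ls1 - hp 1 c.V Lb12 * hp 1 c.V Lq2 := by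
    simp only [hp, dl, Lr12, Lb12, Lq2, Ls1, Lt2, y1, y2, List.length]; push_cast; ring
  have i2 : (y2 * (y2 - y1) : ℚ) * hp 1 c.V Lr22 =
      (54 : ℕ) * hp 1 c.V (dl Lq2) * hp 1 c.V Lt2 * hp 1 c.V Ls22 + (1296 / 13 : ℚ) * hp 1 c.V Lq2 *
        hp 1 c.V Ls22 - hp 1 c.V Lb22 * hp 1 c.V Lq2 := by
    simp only [hp, dl, Lr22, Lb22, Lq2, Ls22, Lt2, y1, y2, List.length]; push_cast; ring
  have g := c.gmem (k := 2) (by decide +kernel)
  have t := fun W => (c.Wb W).2.2.1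
  have o : ∀ a b : F, a = b ^ 0 * a := by simp
  refine c.chart c.clo2 (by decide) (by decide)
    (c.tl 2 c.W1 10 1 5 8 3 (-299) 54 26 0 0 _ _ _ _ _ _ _ rfl (t _) A1 V1 i1 (o ..)
      (g 3 (-299) (1296 / 13) Ls1 Lb12) ze2 rfl (by decide +kernel))
    (c.tl 2 c.W1 10 1 5 8 (-13) 1296 54 26 0 1 _ _ _ _ _ _ (2700 : ℚ) rfl (t _) A1 V1 i1
      (by simp only [show c.b 8 = hp 1 c.V Lt2 from rfl, Lt2, Ls1, Lb12, hp, List.length]; push_cast; ring)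
      (rat_mem (c.B 2) _) xi2 rfl (by decide +kernel))
    (c.tl 2 c.W2 11 1 5 8 3 (-299) 54 24 0 0 _ _ _ _ _ _ _ rfl (t _) A2 V2 i2 (o ..)
      (g 3 (-299) (1296 / 13) Ls22 Lb22) ze2 rfl (by decide +kernel))
    (c.tl 2 c.W2 11 1 5 8 (-13) 1296 54 24 0 0 _ _ _ _ _ _ _ rfl (t _) A2 V2 i2 (o ..)
      (g (-13) 1296 (1296 / 13) Ls22 Lb22) xi2 rfl (by decide +kernel))
    (ev 10 + ev 11 + ze2 + xi2 + ev 2 + ev 0 + ev 9 - ev 8) (by decide +kernel) ?_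
  have z := fun W => c.dzm W 1 5 8 3 (-299) 54
  have x := fun W => c.dzm W 1 5 8 (-13) 1296 54
  have q := fun W : Derivation ℂ F F => show W (c.b 5) = _ from der_hp W c.V Lq2
  change c.T1 * c.W1 (c.m ze2) * (c.T2 * c.W2 (c.m xi2)) -
    c.T1 * c.W1 (c.m xi2) * (c.T2 * c.W2 (c.m ze2)) = _
  simp only [m, mon_add c.nz, mon_sub c.nz, mon_ev]
  rw [show c.W1 (mon c.b ze2) = mon c.b ze2 * _ from z _,
    show c.W2 (mon c.b ze2) = mon c.b ze2 * _ from z _,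
    show c.W1 (mon c.b xi2) = mon c.b xi2 * _ from x _,
    show c.W2 (mon c.b xi2) = mon c.b xi2 * _ from x _]
  have h0 : c.y - y2 ≠ 0 := c.nz 1
  have h4 := c.nz 5
  have h7 := c.nz 8
  simp only [q, t, (c.Wb _).2.1, c.W1y, c.W2y]
  simp only [show c.b 0 = c.y - y1 from rfl, c.W1V, c.W2V,
    show c.b 1 = c.y - y2 from rfl, show c.b 2 = c.y from rfl, show c.b 10 = c.T1 from rfl,
    show c.b 11 = c.T2 from rfl, show c.b 9 = c.p.P1 * c.p.Q2 - c.p.P2 * c.p.Q1 from rfl]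
  push_cast
  field_simp
  ring

/-- Lines without a weighted point. -/
lemma pl {B : Subalgebra ℂ F} {T η q s r β q' A dV : F} (k : ℕ) (J : ℚ) (m0 : ℕ) (hq : q ≠ 0)
    (oA : ∃ R ∈ B.toSubring, A = J * (q ^ m0 * r) + η * R)
    (oV : ∃ R ∈ B.toSubring, dV = q ^ (m0 + 1) * s + η * R)
    (hid : J * r = k * q' * s - β * q) (hq' : q' ∈ B) (hβ : β ∈ B) (hs : s ∈ B)
    (hz : η / q ^ k ∈ B) (h1 : T * q ^ (m0 + 1) ∈ B) (h2 : T * η ∈ B) (h3 : T * η / q ∈ B) :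
    T * (η / q ^ k * (A - k * (q' * dV / q))) ∈ B ∧ T * dV ∈ B := by
  constructor
  · have := asm (B := B.toSubring) (T := T) (z := η / q ^ k) (τ := 1) (β := β) 1 0 k J 0 m0 0 hq
      one_ne_zero (by simpa using oA) (by simpa using oV) (by simpa using hid) hq'
      (Subalgebra.mem_toSubring.2
        (by convert neg_mem (mul_mem (mul_mem hz h1) hβ) using 1; push_cast; ring))
      (Subalgebra.mem_toSubring.2 (by convert mul_mem hz h2 using 1; ring))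
      (Subalgebra.mem_toSubring.2 (by convert mul_mem hz h3 using 1; ring))
      (by simp)
    simpa using this
  · obtain ⟨R, r, rfl⟩ := oV
    convert add_mem (mul_mem h1 hs) (mul_mem h2 r) using 1
    ring

end Ctx

end Vale.Agent.P266
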