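import Vale.Agent.P266.Chart3

/-! The vector fields on the remaining two charts. -/

namespace Vale.Agent.P266
open Matrix

def Lb1p : List ℚ := [2835, 362880]
def Lb20 : List ℚ := [420, -208320]

variable {F : Type} [Field F] [CharZero F] [Algebra ℂ F]

namespace Ctx
variable (c : Ctx F)

lemma mup : c.m up = c.y / c.b 6 ^ 2835 := by
  simp only [up, m, mon_sub c.nz, mon_nsmul, mon_ev]; rfl

lemma mu0 : c.m u0 = c.y⁻¹ / hp 1 (c.V / c.y) Lq0 ^ 84 := by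
  rw [u0, m, mon_sub c.nz, mon_nsmul, ← c.minv, ← c.mq0]

lemma finep : c.Fine 0 := by
  have hy : c.y ≠ 0 := c.nz 2
  have hQ := rat_mem (c.B 0)
  have my : c.y ∈ (c.B 0).toSubring :=
    (show c.m _ = c.y from mon_ev 2) ▸ c.memB (ev 2) (by decide +kernel)
  have mV : c.V ∈ (c.B 0).toSubring :=
    (show c.m _ = c.V from mon_ev 7) ▸ c.memB (ev 7) (by decide +kernel)
  have mu : c.y / c.b 6 ^ 2835 ∈ c.B 0 := c.mup ▸ c.memB up (by decide +kernel)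
  have h := fun l => hp_mem hQ (one_mem _) mV l
  have A := fun (W : Derivation ℂ F F) (Q h : F) (n : ℕ)
      (hW : W c.y = c.y * (c.y - y1) * (c.y - y2) * Q) =>
    dlog_fin (y := c.y) (V := c.V) (w := W c.y) (f := (c.y - y1) * (c.y - y2)) (Q := Q) (h := h)
      (n := n) (y1 * y2) (y1 + y2) hy (by rw [hW]; ring) (by push_cast; ring)
  have M : ∀ (t : Fin 12) (n : ℕ), InC 0 (ev t + n • ev 6) ∧ InC 0 (ev t + ev 2) ∧
      InC 0 (ev t + ev 2 - ev 6) → c.b t * c.b 6 ^ n ∈ c.B 0 ∧ c.b t * c.b 2 ∈ c.B 0 ∧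
      c.b t * c.b 2 / c.b 6 ∈ c.B 0 := fun t n h => by
    simpa only [m, mon_add c.nz, mon_sub c.nz, mon_nsmul, mon_ev] using
      And.intro (c.memB _ h.1) (And.intro (c.memB _ h.2.1) (c.memB _ h.2.2))
  have M1 := M 10 54 (by decide +kernel)
  have M2 := M 11 51 (by decide +kernel)
  have p1 := pl (T := c.T1) (q' := 1) (β := hp 1 c.V Lb1p) 2835 _ 53 (c.nz 6)
    ((A _ _ _ _ c.W1y c.p.rQ1.1 c.p.rQ1.2.1).mem hQ my mV) (c.p.rP1.2.1.mem hQ my mV)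
    (by simp only [show c.b 6 = hp 1 c.V Lqp from rfl, hp, Lqp, Ls1p, Lb1p, kp, y1, y2, List.length]
        push_cast; ring) (one_mem _) (h _) (h _) mu M1.1 M1.2.1 M1.2.2
  have p2 := pl (T := c.T2) (q' := 1) (β := (2835 : ℚ)) 2835 _ 50 (c.nz 6)
    ((A _ _ _ _ c.W2y c.p.rQ2.1 c.p.rQ2.2.1).mem hQ my mV) (c.p.rP2.2.1.mem hQ my mV)
    (by simp only [show c.b 6 = hp 1 c.V Lqp from rfl]; push_cast; ring) (one_mem _) (hQ _) (h _)
    mu M2.1 M2.2.1 M2.2.2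
  have z : ∀ W : Derivation ℂ F F, W (c.m (bc 0 0)) =
      c.y / c.b 6 ^ 2835 * (W c.y / c.y - (2835 : ℕ) * (1 * W c.V / c.b 6)) := fun W => by
    rw [show c.m (bc 0 0) = _ from c.mup, du W hy (c.nz 6), (c.Wb W).2.2.2, one_mul]
  have x : c.m (bc 0 10) = c.V := mon_ev 7
  refine c.chart c.clop (by decide) (by decide) (by rw [z, c.W1V]; exact p1.1)
    (by rw [x, c.W1V]; exact p1.2) (by rw [z, c.W2V]; exact p2.1) (by rw [x, c.W2V]; exact p2.2)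
    (ev 10 + ev 11 + up + ev 0 + ev 1 + ev 9) (by decide +kernel) ?_
  rw [z, z, x]
  simp only [m, mon_add c.nz, mon_ev, show mon c.b up = _ from c.mup]
  have h4 := c.nz 6
  simp only [show c.b 0 = c.y - y1 from rfl, c.W1V, c.W2V, c.W1y, c.W2y,
    show c.b 1 = c.y - y2 from rfl, show c.b 10 = c.T1 from rfl,
    show c.b 11 = c.T2 from rfl, show c.b 9 = c.p.P1 * c.p.Q2 - c.p.P2 * c.p.Q1 from rfl]
  field_simp
  ring

lemma fine0 : c.Fine 3 := by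
  have hy : c.y ≠ 0 := c.nz 2
  have hQ := rat_mem (c.B 3)
  have x : c.m (bc 3 10) = c.V / c.y := (c.mdv 7 1).trans (by rw [pow_one]; rfl)
  have my : c.y⁻¹ ∈ (c.B 3).toSubring := c.minv ▸ c.memB (-ev 2) (by decide +kernel)
  have mV : c.V / c.y ∈ (c.B 3).toSubring := x ▸ c.memB (bc 3 10) (by decide +kernel)
  have mu : c.y⁻¹ / hp 1 (c.V / c.y) Lq0 ^ 84 ∈ c.B 3 := c.mu0 ▸ c.memB u0 (by decide +kernel)
  have hq : hp 1 (c.V / c.y) Lq0 ≠ 0 := c.mq0 ▸ mon_ne c.nz _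
  have h := fun l => hp_mem hQ (one_mem _) mV l
  have q0 : hp c.y c.V Lq0 = c.y ^ 5 * hp 1 (c.V / c.y) Lq0 := hp_y hy _ _
  have L1 := line0 (X := hp 1 (c.V / c.y) Lq0 ^ 10 * hp 1 (c.V / c.y) Lr10)
    (Z := hp 1 (c.V / c.y) Lq0 ^ 11 * (c.V / c.y)) hy hQ my mV c.p.rQ1.1 c.p.rP1.2.2.2.2
    c.p.rQ1.2.2.2.2 (by rw [q0, show hp c.y c.V Lr10 = c.y ^ 3 * hp 1 _ Lr10 from hp_y hy _ _]
                        field_simp; ring)
    (by rw [q0, show hp c.y c.V Lr10 = c.y ^ 3 * hp 1 _ Lr10 from hp_y hy _ _]; ring)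
  have L2 := line0 (X := hp 1 (c.V / c.y) Lq0 ^ 9 * hp 1 (c.V / c.y) Lr20)
    (Z := hp 1 (c.V / c.y) Lq0 ^ 10 * hp 1 (c.V / c.y) Ls20) hy hQ my mV c.p.rQ2.1 c.p.rP2.2.2.2.2
    c.p.rQ2.2.2.2.2 (by rw [q0, show hp c.y c.V Lr20 = c.y ^ 4 * hp 1 _ Lr20 from hp_y hy _ _,
                          show hp c.y c.V Ls20 = c.y ^ 2 * hp 1 _ Ls20 from hp_y hy _ _]; ring)
    (by rw [q0, show hp c.y c.V Lr20 = c.y ^ 4 * hp 1 _ Lr20 from hp_y hy _ _]; ring)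
  have M : ∀ (t : Fin 12) (n k : ℕ), InC 3 (ev t + k • ev 2 + n • dv 3 5) ∧
      InC 3 (ev t + k • ev 2 + -ev 2) ∧ InC 3 (ev t + k • ev 2 + -ev 2 - dv 3 5) →
      c.b t * c.b 2 ^ k * hp 1 (c.V / c.y) Lq0 ^ n ∈ c.B 3 ∧ c.b t * c.b 2 ^ k * c.y⁻¹ ∈ c.B 3 ∧
      c.b t * c.b 2 ^ k * c.y⁻¹ / hp 1 (c.V / c.y) Lq0 ∈ c.B 3 := fun t n k h => by
    simpa only [m, mon_add c.nz, mon_sub c.nz, mon_nsmul, mon_ev, show mon c.b _ = _ from c.mq0,
      show mon c.b _ = _ from c.minv] using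
      And.intro (c.memB _ h.1) (And.intro (c.memB _ h.2.1) (c.memB _ h.2.2))
  have M1 := M 10 11 55 (by decide +kernel)
  have M2 := M 11 10 51 (by decide +kernel)
  have p1 := pl (T := c.T1 * c.y ^ 55) (q' := hp 1 (c.V / c.y) (dl Lq0)) (β := (420 : ℚ)) 84 _ 10 hq
    L1.1 L1.2 (by simp only [hp, dl, Lq0, Lr10, List.length]; push_cast; ring) (h _) (hQ _) mV mu
    M1.1 M1.2.1 M1.2.2
  have p2 := pl (T := c.T2 * c.y ^ 51) (q' := hp 1 (c.V / c.y) (dl Lq0))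
    (β := hp 1 (c.V / c.y) Lb20) 84 _ 9 hq L2.1 L2.2
    (by simp only [hp, dl, Lq0, Lr20, Ls20, Lb20, List.length]; push_cast; ring) (h _) (h _) (h _)
    mu M2.1 M2.2.1 M2.2.2
  have s : ∀ (W : Derivation ℂ F F) (Q : F), W c.y = c.y * (c.y - y1) * (c.y - y2) * Q →
      W (c.m (bc 3 10)) = W c.V / c.y - c.V / c.y * ((c.y - y1) * (c.y - y2) * Q) ∧
      W (c.m (bc 3 0)) = c.y⁻¹ / hp 1 (c.V / c.y) Lq0 ^ 84 * (-((c.y - y1) * (c.y - y2) * Q) -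
        (84 : ℕ) * (hp 1 (c.V / c.y) (dl Lq0) *
          (W c.V / c.y - c.V / c.y * ((c.y - y1) * (c.y - y2) * Q)) / hp 1 (c.V / c.y) Lq0)) := by
    intro W Q hW
    have e : W (c.V / c.y) = W c.V / c.y - c.V / c.y * ((c.y - y1) * (c.y - y2) * Q) := by
      rw [W.leibniz_div, hW]; simp only [smul_eq_mul]; field_simp
    refine ⟨x ▸ e, ?_⟩
    rw [show c.m (bc 3 0) = _ from c.mu0, du W (inv_ne_zero hy) hq, der_hp, e, W.leibniz_inv, hW]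
    congr 2
    simp only [smul_eq_mul]; field_simp
  have s1 := s _ _ c.W1y
  have s2 := s _ _ c.W2y
  rw [c.W1V] at s1
  rw [c.W2V] at s2
  refine c.chart c.clo0 (by decide) (by decide) ?_ ?_ ?_ ?_
    (ev 10 + ev 11 + u0 + ev 0 + ev 1 + ev 9 - ev 2) (by decide +kernel) ?_
  · rw [s1.1]; convert p1.2 using 1; field_simp; ring
  · rw [s1.2]; convert p1.1 using 1; field_simp; ring
  · rw [s2.1]; convert p2.2 using 1; field_simp; ring
  · rw [s2.2]; convert p2.1 using 1; field_simp; ring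
  rw [s1.1, s1.2, s2.1, s2.2]
  simp only [m, mon_add c.nz, mon_sub c.nz, mon_ev, show mon c.b u0 = _ from c.mu0]
  simp only [show c.b 0 = c.y - y1 from rfl, show c.b 2 = c.y from rfl,
    show c.b 1 = c.y - y2 from rfl, show c.b 10 = c.T1 from rfl,
    show c.b 11 = c.T2 from rfl, show c.b 9 = c.p.P1 * c.p.Q2 - c.p.P2 * c.p.Q1 from rfl]
  field_simp
  ring

lemma fine (k : Fin 4) : c.Fine k := by
  fin_cases k
  exacts [c.finep, c.fine1, c.fine2, c.fine0]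

end Ctx

end Vale.Agent.P266
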