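import Vale.Agent.P266.Frames

/-! The context of the construction, and the generic chart lemmas. -/

namespace Vale.Agent.P266
open Matrix Algebra

variable {F : Type} [Field F]

def bas (y V T1 T2 G : F) : Fin 12 → F :=
  ![y - y1, y - y2, y, hp y V Lq0, hp 1 V Lq1, hp 1 V Lq2, hp 1 V Lqp, V, hp 1 V Lt2, G, T1, T2]

structure Pol (y V : F) where
  (P1 P2 Q1 Q2 : F)
  rP1 : Res y V 55 P1 (hp 1 V Lqp ^ 54 * hp 1 V Ls1p) (hp 1 V Lq1 ^ 13 * V ^ 3 * hp 1 V Ls1)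
    (hp 1 V Lq2 ^ 27 * hp 1 V Lt2 ^ 1 * hp 1 V Ls1)
    (hp y V Lq0 ^ 11 * V + y ^ 2 * (hp y V Lq0 ^ 10 * V * hp y V Lr10))
  rP2 : Res y V 51 P2 (hp 1 V Lqp ^ 51 * hp 1 V Lqp) (hp 1 V Lq1 ^ 12 * V ^ 3 * hp 1 V Ls21)
    (hp 1 V Lq2 ^ 25 * hp 1 V Lt2 ^ 1 * hp 1 V Ls22)
    (hp y V Lq0 ^ 10 * hp y V Ls20 + y ^ 2 * (hp y V Lq0 ^ 9 * V * hp y V Lr20))
  rQ1 : Res y V 52 Q1 (hp 1 V Lqp ^ 53 * (-kp : ℚ)) (hp 1 V Lq1 ^ 12 * V ^ 2 * hp 1 V Lr11)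
    (hp 1 V Lq2 ^ 26 * hp 1 V Lt2 ^ 0 * hp 1 V Lr12) (hp y V Lq0 ^ 10 * hp y V Lr10)
  rQ2 : Res y V 48 Q2 (hp 1 V Lqp ^ 50 * 0) (hp 1 V Lq1 ^ 11 * V ^ 2 * hp 1 V Lr21)
    (hp 1 V Lq2 ^ 24 * hp 1 V Lt2 ^ 0 * hp 1 V Lr22) (hp y V Lq0 ^ 9 * hp y V Lr20)

variable [CharZero F]

lemma Pol.ex (y V : F) : Nonempty (Pol y V) := by
  obtain ⟨P1, h1⟩ := exP1 y V
  obtain ⟨P2, h2⟩ := exP2 y V
  obtain ⟨Q1, h3⟩ := exQ1 y V
  obtain ⟨Q2, h4⟩ := exQ2 y V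
  exact ⟨⟨P1, P2, Q1, Q2, h1, h2, h3, h4⟩⟩

def Pol.G {y V : F} (p : Pol y V) : F := p.P1 * p.Q2 - p.P2 * p.Q1

lemma Pol.rG {y V : F} (p : Pol y V) : Res y V 104 p.G (kp * hp 1 V Lqp ^ 105 * 1 ^ 0)
    (kp * hp 1 V Lq1 ^ 25 * V ^ 5) (kp * hp 1 V Lq2 ^ 52 * hp 1 V Lt2 ^ 1)
    (kp * hp y V Lq0 ^ 21) := by
  have w := fun {e a b c d : F} (he : Hm y V 1 e) =>
    On.wedge (a := a) (b := b) (c := c) (d := d) (n1 := 52) (n2 := 48) he p.rP1.1 p.rP2.1 p.rQ1.1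
      p.rQ2.1
  refine ⟨(p.rP1.1.mul p.rQ2.1).sub (p.rP2.1.mul p.rQ1.1), ?_, ?_, ?_, ?_⟩
  · convert w Hm.fst p.rP1.2.1 p.rP2.2.1 p.rQ1.2.1 p.rQ2.2.1 using 1
    · rfl
    push_cast; ring
  · convert w (Hm.lin _) p.rP1.2.2.1 p.rP2.2.2.1 p.rQ1.2.2.1 p.rQ2.2.2.1 using 1
    · rfl
    have : hp 1 V Ls1 * hp 1 V Lr21 - hp 1 V Ls21 * hp 1 V Lr11 = kp * hp 1 V Lq1 := by
      simp only [hp, Ls1, Lr21, Ls21, Lr11, kp, Lq1, List.length]; push_cast; ring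
    linear_combination -(hp 1 V Lq1 ^ 24 * V ^ 5) * this
  · convert w (Hm.lin _) p.rP1.2.2.2.1 p.rP2.2.2.2.1 p.rQ1.2.2.2.1 p.rQ2.2.2.2.1 using 1
    · rfl
    have : hp 1 V Ls1 * hp 1 V Lr22 - hp 1 V Ls22 * hp 1 V Lr12 = kp * hp 1 V Lq2 := by
      simp only [hp, Ls1, Lr22, Ls22, Lr12, kp, Lq2, List.length]; push_cast; ring
    linear_combination -(hp 1 V Lq2 ^ 51 * hp 1 V Lt2) * this
  · convert w Hm.one p.rP1.2.2.2.2 p.rP2.2.2.2.2 p.rQ1.2.2.2.2 p.rQ2.2.2.2.2 using 1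
    · rfl
    have : V * hp y V Lr20 - hp y V Ls20 * hp y V Lr10 = kp * hp y V Lq0 := by
      simp only [hp, Lr20, Ls20, Lr10, kp, Lq0, List.length]; push_cast; ring
    linear_combination -(hp y V Lq0 ^ 20) * this

variable [Algebra ℂ F]

omit [CharZero F] in
lemma rat_mem (S : Subalgebra ℂ F) (q : ℚ) : (q : F) ∈ S.toSubring := by
  have := S.algebraMap_mem (q : ℂ)
  rwa [map_ratCast] at this

omit [CharZero F] in
lemma der_rat (D : Derivation ℂ F F) (q : ℚ) : D (q : F) = 0 := by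
  rw [← map_ratCast (algebraMap ℂ F), D.map_algebraMap]

/-- Elements of `B` that `D` maps into `B'`. -/
def stabS (D : Derivation ℂ F F) (B : Subalgebra ℂ F) (B' : Submodule B F) : Subalgebra ℂ F where
  carrier := {f | f ∈ B ∧ D f ∈ B'}
  mul_mem' := fun {a b} ha hb => ⟨mul_mem ha.1 hb.1, by
    rw [D.leibniz]
    exact add_mem (B'.smul_mem ⟨a, ha.1⟩ hb.2) (B'.smul_mem ⟨b, hb.1⟩ ha.2)⟩
  add_mem' := fun ha hb => ⟨add_mem ha.1 hb.1, by rw [map_add]; exact add_mem ha.2 hb.2⟩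
  algebraMap_mem' := fun c => ⟨B.algebraMap_mem c, by rw [D.map_algebraMap]; exact zero_mem _⟩

/-- The kernel of a derivation. -/
noncomputable def kerD (D : Derivation ℂ F F) : IntermediateField ℂ F :=
  (stabS D ⊤ ⊥).toIntermediateField fun f hf => ⟨trivial, by
    have : D f = 0 := hf.2
    rw [D.leibniz_inv, this, smul_zero]; exact zero_mem _⟩

omit [CharZero F] in
lemma mem_kerD {D : Derivation ℂ F F} {f : F} : f ∈ kerD D ↔ D f = 0 :=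
  ⟨fun h => h.2, fun h => ⟨trivial, h⟩⟩

omit [CharZero F] in
lemma Hm.der {y V f : F} {n : ℕ} (h : Hm y V n f) {D : Derivation ℂ F F} (hy : D y = 0)
    (hV : D V = 0) : D f = 0 :=
  mem_kerD.1 (h.mem (S := (kerD D).toSubalgebra.toSubring) (rat_mem _) (mem_kerD.2 hy)
    (mem_kerD.2 hV))

structure Ctx (F : Type) [Field F] [CharZero F] [Algebra ℂ F] where
  (y V T1 T2 : F)
  p : Pol y V
  (W1 W2 E1 E2 : Derivation ℂ F F)
  W1y : W1 y = y * (y - y1) * (y - y2) * p.Q1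
  W2y : W2 y = y * (y - y1) * (y - y2) * p.Q2
  W1V : W1 V = p.P1
  W2V : W2 V = p.P2
  E1y : E1 y = 0
  E1V : E1 V = 0
  E1T1 : E1 T1 = T1
  E1T2 : E1 T2 = 0
  E2y : E2 y = 0
  E2V : E2 V = 0
  E2T1 : E2 T1 = 0
  E2T2 : E2 T2 = T2
  hb : ∀ i, bas y V T1 T2 p.G i ≠ 0
  gen : ∀ S : IntermediateField ℂ F, y ∈ S → V ∈ S → T1 ∈ S → T2 ∈ S → ∀ f, f ∈ S

namespace Ctx
variable (c : Ctx F)

def b : Fin 12 → F := bas c.y c.V c.T1 c.T2 c.p.G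
abbrev m (e : Vc) : F := mon c.b e
lemma nz (i : Fin 12) : c.b i ≠ 0 := c.hb i

lemma Hb : ∀ i : Fin 12, i ≠ 10 → i ≠ 11 → ∃ n, Hm c.y c.V n (c.b i) :=
  all12 (fun _ _ => ⟨_, Hm.lin _⟩) (fun _ _ => ⟨_, Hm.lin _⟩) (fun _ _ => ⟨_, Hm.fst⟩)
    (fun _ _ => ⟨_, Hm_hp Hm.fst _ _ (Nat.le_succ _)⟩)
    (fun _ _ => ⟨_, Hm_hp Hm.one _ _ (Nat.le_succ _)⟩)
    (fun _ _ => ⟨_, Hm_hp Hm.one _ _ (Nat.le_succ _)⟩)
    (fun _ _ => ⟨_, Hm_hp Hm.one _ _ (Nat.le_succ _)⟩) (fun _ _ => ⟨_, Hm.snd⟩)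
    (fun _ _ => ⟨_, Hm_hp Hm.one _ _ (Nat.le_succ _)⟩) (fun _ _ => ⟨_, c.p.rG.1⟩)
    (fun h _ => (h rfl).elim) (fun _ h => (h rfl).elim)

lemma E_mon {E : Derivation ℂ F F} (hy : E c.y = 0) (hV : E c.V = 0) (s t : F)
    (h1 : E c.T1 = s * c.T1) (h2 : E c.T2 = t * c.T2) (e : Vc) :
    E (c.m e) = (e 10 * s + e 11 * t) * c.m e := by
  rw [der_mon c.nz, mul_comm]
  congr 1
  rw [Finset.sum_eq_add (10 : Fin 12) 11 (by decide) ?_ (by simp) (by simp)]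
  · have a1 : E (c.b 10) = s * c.b 10 := h1
    have a2 : E (c.b 11) = t * c.b 11 := h2
    rw [a1, a2, mul_div_cancel_right₀ _ (c.nz _), mul_div_cancel_right₀ _ (c.nz _)]
  · intro i _ hi
    obtain ⟨n, hn⟩ := c.Hb i hi.1 hi.2
    rw [hn.der hy hV]; simp

lemma E1_mon (e : Vc) : c.E1 (c.m e) = e 10 * c.m e := by
  rw [c.E_mon c.E1y c.E1V 1 0 (by simp [c.E1T1]) (by simp [c.E1T2])]; simp

lemma E2_mon (e : Vc) : c.E2 (c.m e) = e 11 * c.m e := by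
  rw [c.E_mon c.E2y c.E2V 0 1 (by simp [c.E2T1]) (by simp [c.E2T2])]; simp

/-- The correction making the units constants. -/
def ka (W : Derivation ℂ F F) (U : Vc) : F := -(W (c.m U) * (c.m U)⁻¹ * (466830⁻¹ : ℚ))

noncomputable def DD (T : F) (W : Derivation ℂ F F) : Derivation ℂ F F :=
  T • (W + c.ka W U1 • c.E1 + c.ka W U2 • c.E2)

lemma DD_apply (T : F) (W : Derivation ℂ F F) (f : F) :
    c.DD T W f = T * (W f + c.ka W U1 * c.E1 f + c.ka W U2 * c.E2 f) := rfl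

lemma DD_U (T : F) (W : Derivation ℂ F F) : c.DD T W (c.m U1) = 0 ∧ c.DD T W (c.m U2) = 0 := by
  have h1 := mon_ne c.nz U1
  have h2 := mon_ne c.nz U2
  simp only [DD_apply, E1_mon, E2_mon, ka, show U1 10 = 466830 by decide, show U1 11 = 0 by decide,
    show U2 10 = 0 by decide, show U2 11 = 466830 by decide]
  push_cast
  constructor <;> field_simp <;> ring

lemma DD_free (T : F) (W : Derivation ℂ F F) (e : Vc) (h1 : e 10 = 0) (h2 : e 11 = 0) :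
    c.DD T W (c.m e) = T * W (c.m e) := by
  simp [DD_apply, E1_mon, E2_mon, h1, h2]

noncomputable def D : Fin 4 → Derivation ℂ F F := ![c.DD c.T1 c.W1, c.DD c.T2 c.W2, c.E1, c.E2]

def B (k : Fin 4) : Subalgebra ℂ F :=
  adjoin ℂ {f | ∃ l, f = c.m (bc k l) ∨ (unc l = true ∧ f = (c.m (bc k l))⁻¹)}

lemma memB {k : Fin 4} (e : Vc) (h : InC k e) : c.m e ∈ c.B k :=
  frame_mem c.nz (hFc k) (c.B k).toSubring (fun l => subset_adjoin ⟨l, .inl rfl⟩)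
    (fun l hl => subset_adjoin ⟨l, .inr ⟨hl, rfl⟩⟩) h

lemma stab_of {k : Fin 4} {D : Derivation ℂ F F} (h : ∀ l, D (c.m (bc k l)) ∈ c.B k) :
    ∀ a ∈ c.B k, D a ∈ c.B k := by
  intro a ha
  have : c.B k ≤ stabS D (c.B k) 1 := by
    refine adjoin_le ?_
    rintro _ ⟨l, rfl | ⟨hl, rfl⟩⟩
    · exact ⟨subset_adjoin ⟨l, .inl rfl⟩, Submodule.mem_one.2 ⟨⟨_, h l⟩, rfl⟩⟩
    · have : (c.m (bc k l))⁻¹ ∈ c.B k := subset_adjoin ⟨l, .inr ⟨hl, rfl⟩⟩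
      have h2 : D (c.m (bc k l))⁻¹ ∈ c.B k := by
        rw [D.leibniz_inv]
        exact mul_mem (neg_mem (pow_mem this 2)) (h l)
      exact ⟨this, Submodule.mem_one.2 ⟨⟨_, h2⟩, rfl⟩⟩
  obtain ⟨b, hb⟩ := Submodule.mem_one.1 (this ha).2
  exact hb ▸ b.2

/-- Closure property of the two coordinates of a chart. -/
def Clo (k : Fin 4) (i j : Fin 12) : Prop := ∀ S : Subring F, (∀ q : ℚ, (q : F) ∈ S) →
  c.m (bc k i) ∈ S → c.m (bc k j) ∈ S → ∀ l, l ≠ 4 → l ≠ 5 → c.m (bc k l) ∈ S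

lemma stab {k : Fin 4} {i j : Fin 12} (hc : c.Clo k i j) {D : Derivation ℂ F F}
    (hU : D (c.m U1) = 0 ∧ D (c.m U2) = 0) (h1 : D (c.m (bc k i)) ∈ c.B k)
    (h2 : D (c.m (bc k j)) ∈ c.B k) : ∀ a ∈ c.B k, D a ∈ c.B k := by
  have hm : ∀ l, c.m (bc k l) ∈ c.B k := fun l => subset_adjoin ⟨l, .inl rfl⟩
  have h3 : ∀ l, l ≠ 4 → l ≠ 5 → D (c.m (bc k l)) ∈ c.B k := fun l a b => by
    obtain ⟨b, hb⟩ := Submodule.mem_one.1 (hc (stabS D (c.B k) 1).toSubring (rat_mem _)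
      ⟨hm _, Submodule.mem_one.2 ⟨⟨_, h1⟩, rfl⟩⟩ ⟨hm _, Submodule.mem_one.2 ⟨⟨_, h2⟩, rfl⟩⟩ l a b).2
    exact hb ▸ b.2
  have hb' : ∀ l, c.m (bc k l) ≠ 0 := fun l => mon_ne c.nz _
  have key : ∀ (U : Vc) (t : Fin 12), 4 ≤ t → D (c.m U) = 0 →
      (∀ l, 4 ≤ l → (U ᵥ* Fc k) l = 466830 * ev t l) → D (c.m (bc k t)) ∈ c.B k := by
    intro U t ht h0 hco
    have e1 := mon_frame c.nz (hFc k) U
    rw [pow_one] at e1
    have e2 := der_mon hb' D (U ᵥ* Fc k)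
    rw [← e1, h0, eq_comm, mul_eq_zero, ← Finset.add_sum_erase _ _ (Finset.mem_univ t), hco t ht]
      at e2
    have e3 := e2.resolve_left (mon_ne c.nz _)
    have e4 : ∑ l ∈ Finset.univ.erase t, ((U ᵥ* Fc k) l : F) * (D (c.m (bc k l)) / c.m (bc k l))
        ∈ c.B k := by
      refine sum_mem fun l hl => ?_
      by_cases h4 : 4 ≤ l
      · simp [hco l h4, ev, Finset.ne_of_mem_erase hl]
      · rw [div_eq_mul_inv]
        exact mul_mem (intCast_mem _ _) (mul_mem (h3 l (by omega) (by omega))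
          (subset_adjoin ⟨l, .inr ⟨by simp [unc]; omega, rfl⟩⟩))
    have e5 : D (c.m (bc k t)) = (-466830⁻¹ : ℚ) * c.m (bc k t) * ∑ l ∈ Finset.univ.erase t,
        ((U ᵥ* Fc k) l : F) * (D (c.m (bc k l)) / c.m (bc k l)) := by
      rw [← neg_eq_of_add_eq_zero_right e3]
      have := hb' t
      simp only [ev, if_true]; push_cast; field_simp
    rw [e5]
    exact mul_mem (mul_mem (rat_mem (c.B k) _) (hm t)) e4
  refine c.stab_of fun l => ?_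
  by_cases a : l = 4
  · exact a ▸ key U1 4 le_rfl hU.1 fun l h => (U_co k l h).1
  by_cases b : l = 5
  · exact b ▸ key U2 5 (by decide) hU.2 fun l h => (U_co k l h).2
  exact h3 l a b

lemma chart {k : Fin 4} {i j : Fin 12} (hc : c.Clo k i j) (hi : i ≠ 4 ∧ i ≠ 5) (hj : j ≠ 4 ∧ j ≠ 5)
    (a1 : c.T1 * c.W1 (c.m (bc k i)) ∈ c.B k) (a2 : c.T1 * c.W1 (c.m (bc k j)) ∈ c.B k)
    (a3 : c.T2 * c.W2 (c.m (bc k i)) ∈ c.B k) (a4 : c.T2 * c.W2 (c.m (bc k j)) ∈ c.B k)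
    (e : Vc) (he : InC k (-e)) (hd : c.T1 * c.W1 (c.m (bc k i)) * (c.T2 * c.W2 (c.m (bc k j))) -
      c.T1 * c.W1 (c.m (bc k j)) * (c.T2 * c.W2 (c.m (bc k i))) = -c.m e) :
    (∀ t, ∀ a ∈ c.B k, c.D t a ∈ c.B k) ∧ ∀ a : Fin 4 → F,
      (∀ b ∈ c.B k, ∑ t, a t * c.D t b ∈ c.B k) → ∀ t, a t ∈ c.B k := by
  have hm : ∀ l, c.m (bc k l) ∈ c.B k := fun l => subset_adjoin ⟨l, .inl rfl⟩
  have f : ∀ l, l ≠ 4 ∧ l ≠ 5 → bc k l 10 = 0 ∧ bc k l 11 = 0 := fun l h => by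
    simp [bc_T, ev, h.1, h.2]
  have d := fun T W l h => c.DD_free T W (bc k l) (f l h).1 (f l h).2
  have s1 := c.stab hc (c.DD_U c.T1 c.W1) (d _ _ _ hi ▸ a1) (d _ _ _ hj ▸ a2)
  have s2 := c.stab hc (c.DD_U c.T2 c.W2) (d _ _ _ hi ▸ a3) (d _ _ _ hj ▸ a4)
  refine ⟨fun t => ?_, fun a ha => ?_⟩
  · fin_cases t
    · exact s1
    · exact s2
    · exact c.stab_of fun l => c.E1_mon _ ▸ mul_mem (intCast_mem _ _) (hm l)
    · exact c.stab_of fun l => c.E2_mon _ ▸ mul_mem (intCast_mem _ _) (hm l)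
  have hi' := ha _ (hm i)
  have hj' := ha _ (hm j)
  have h4 := ha _ (hm 4)
  have h5 := ha _ (hm 5)
  simp only [Fin.sum_univ_four, D, cons_val_zero, cons_val_one, cons_val, E1_mon, E2_mon,
    d _ _ _ hi, d _ _ _ hj, f i hi, f j hj, bc_T, show ev 4 4 = 1 from rfl,
    show ev 5 5 = 1 from rfl, show ev 4 5 = 0 from rfl, show ev 5 4 = 0 from rfl, Int.cast_zero,
    Int.cast_one, zero_mul, mul_zero, add_zero, one_mul] at hi' hj' h4 h5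
  have hi0 := c.memB _ he
  rw [m, mon_neg] at hi0
  have h0 := mon_ne c.nz e
  have b0 : a 0 ∈ c.B k := by
    have := mul_mem (sub_mem (mul_mem hj' a3) (mul_mem hi' a4)) hi0
    convert this using 1
    field_simp
    linear_combination (a 0) * hd
  have b1 : a 1 ∈ c.B k := by
    have := mul_mem (sub_mem (mul_mem hi' a2) (mul_mem hj' a1)) hi0
    convert this using 1
    field_simp
    linear_combination (a 1) * hd
  have u : ∀ l, unc l = true → (c.m (bc k l))⁻¹ ∈ c.B k := fun l h =>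
    subset_adjoin ⟨l, .inr ⟨h, rfl⟩⟩
  intro t
  fin_cases t
  · exact b0
  · exact b1
  · have := mul_mem (sub_mem (sub_mem h4 (mul_mem b0 (s1 _ (hm 4)))) (mul_mem b1 (s2 _ (hm 4))))
      (u 4 rfl)
    have h := mon_ne c.nz (bc k 4)
    convert this using 1
    field_simp
    simp only [Fin.reduceFinMk]; ring
  · have := mul_mem (sub_mem (sub_mem h5 (mul_mem b0 (s1 _ (hm 5)))) (mul_mem b1 (s2 _ (hm 5))))
      (u 5 rfl)
    have h := mon_ne c.nz (bc k 5)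
    convert this using 1
    field_simp
    simp only [Fin.reduceFinMk]; ring

lemma span (δ : Derivation ℂ F F) : ∃ a : Fin 4 → F, ∀ f, δ f = ∑ t, a t * c.D t f := by
  have n0 : c.y - y1 ≠ 0 := c.nz 0
  have n1 : c.y - y2 ≠ 0 := c.nz 1
  have n2 : c.y ≠ 0 := c.nz 2
  have n9 : c.p.P1 * c.p.Q2 - c.p.P2 * c.p.Q1 ≠ 0 := c.nz 9
  have n8 : c.p.Q2 * c.p.P1 - c.p.P2 * c.p.Q1 ≠ 0 := by rwa [mul_comm]
  have n10 : c.T1 ≠ 0 := c.nz 10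
  have n11 : c.T2 ≠ 0 := c.nz 11
  let w := c.y * (c.y - y1) * (c.y - y2)
  let g := c.p.P1 * c.p.Q2 - c.p.P2 * c.p.Q1
  let a0 := (δ c.V * w * c.p.Q2 - δ c.y * c.p.P2) / (c.T1 * w * g)
  let a1 := (δ c.y * c.p.P1 - δ c.V * w * c.p.Q1) / (c.T2 * w * g)
  let a : Fin 4 → F := ![a0, a1, (δ c.T1 - a0 * c.D 0 c.T1 - a1 * c.D 1 c.T1) / c.T1,
    (δ c.T2 - a0 * c.D 0 c.T2 - a1 * c.D 1 c.T2) / c.T2]
  refine ⟨a, fun f => ?_⟩
  have e : ∀ f, (δ - ∑ t, a t • c.D t) f = δ f - ∑ t, a t * c.D t f := fun f => by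
    simp [Fin.sum_univ_four]
  rw [← sub_eq_zero, ← e, ← mem_kerD]
  refine c.gen _ ?_ ?_ ?_ ?_ f <;> rw [mem_kerD, e, sub_eq_zero, Fin.sum_univ_four]
  · simp only [D, a, cons_val_zero, cons_val_one, cons_val, DD_apply, c.E1y, c.E2y, c.W1y, c.W2y,
      a0, a1, w, g]
    field_simp; ring
  · simp only [D, a, cons_val_zero, cons_val_one, cons_val, DD_apply, c.E1V, c.E2V, c.W1V, c.W2V,
      a0, a1, w, g]
    field_simp; ring
  · simp only [a, cons_val_zero, cons_val_one, cons_val, show c.D 2 c.T1 = c.T1 from c.E1T1,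
      show c.D 3 c.T1 = 0 from c.E2T1]
    field_simp; ring
  · simp only [a, cons_val_zero, cons_val_one, cons_val, show c.D 2 c.T2 = 0 from c.E1T2,
      show c.D 3 c.T2 = c.T2 from c.E2T2]
    field_simp; ring

end Ctx

end Vale.Agent.P266
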