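import Vale.Agent.P266.Val
import Vale.Agent.P266.Abs3

/-! From a context to the counterexample. -/

namespace Vale.Agent.P266
open Matrix Algebra

variable {F : Type} [Field F] [CharZero F] [Algebra ℂ F]

omit [CharZero F] [Algebra ℂ F] in
lemma vunit {O : ValuationSubring F} {a : F} (h0 : a ≠ 0) (h : a ∈ O) (h' : a⁻¹ ∈ O) :
    O.valuation a = 1 := by
  have := vle (O := O) h'
  rw [map_inv₀, inv_le_one₀ (by simpa [zero_lt_iff] using h0)] at this
  exact le_antisymm (vle h) this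

theorem Ctx.final (c : Ctx F) (htr : trdeg ℂ F = 4) (O : ValuationSubring F)
    (hC : ∀ z : ℂ, algebraMap ℂ F z ∈ O) (hU1 : O.valuation (c.m U1) = 1)
    (hU2 : O.valuation (c.m U2) = 1) (hV : c.V ∈ O) (hu : O.valuation (c.m up) < 1)
    (hT : O.valuation c.T1 < 1) (hW : ∀ f ∈ O, c.W1 f ∈ O) (hE1 : ∀ f ∈ O, c.E1 f ∈ O)
    (hE2 : ∀ f ∈ O, c.E2 f ∈ O) :
    ∃ (A : Type) (_ : CommRing A) (_ : IsDomain A) (_ : Algebra ℂ A), FiniteType ℂ A ∧
      Module.Free A (Derivation ℂ A A) ∧ ¬ IsRegularRing A ∧ ¬ Smooth ℂ A := by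
  let g : Set F := Set.range fun p : Fin 4 × Fin 12 × Bool => c.m (gv p.1 p.2.1 p.2.2)
  let A0 := adjoin ℂ (g ∪ {c.m U1, (c.m U1)⁻¹, c.m U2, (c.m U2)⁻¹})
  have hg : ∀ k l s, c.m (gv k l s) ∈ A0 := fun k l s => subset_adjoin (.inl ⟨(k, l, s), rfl⟩)
  have hx : ∀ k, c.m (xc k) ∈ A0 := fun k => hg k 6 false
  have hloc : ∀ k, ∀ a ∈ c.B k, ∃ n, c.m (xc k) ^ n * a ∈ A0 := by
    intro k a ha
    induction ha using adjoin_induction with
    | mem a ha =>
      obtain ⟨l, rfl | ⟨hl, rfl⟩⟩ := ha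
      · exact ⟨1296, by simpa only [gv, if_true, Ctx.m, mon_add c.nz, mon_nsmul] using hg k l true⟩
      · refine ⟨1296, ?_⟩
        simpa only [gv, hl, Bool.false_eq_true, if_false, if_true, Ctx.m,
          mon_sub c.nz, mon_nsmul, div_eq_mul_inv] using hg k l false
    | algebraMap r => exact ⟨0, by simp⟩
    | add a b _ _ ha hb =>
      obtain ⟨n, hn⟩ := ha
      obtain ⟨m, hm⟩ := hb
      refine ⟨n + m, ?_⟩
      convert add_mem (mul_mem (pow_mem (hx k) m) hn) (mul_mem (pow_mem (hx k) n) hm) using 1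
      ring
    | mul a b _ _ ha hb =>
      obtain ⟨n, hn⟩ := ha
      obtain ⟨m, hm⟩ := hb
      refine ⟨n + m, ?_⟩
      convert mul_mem hn hm using 1
      ring
  have inv : ∀ {k} (e : Vc), InC k (-e) → (c.m e)⁻¹ ∈ c.B k := fun e h =>
    mon_neg (b := c.b) e ▸ c.memB _ h
  refine abstract htr c.B A0 _ _ (mon_ne c.nz U1) (mon_ne c.nz U2) g (Set.finite_range _) rfl
    (fun k => adjoin_le ?_) (fun k => c.m (xc k)) hx (fun k => mon_ne c.nz _)
    (fun k => inv _ (U_in k).2.2.2.2) hloc ?_ ?_ c.D (fun t k => (c.fine k).1 t)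
    (fun k => (c.fine k).2) c.span O ?_ ⟨c.T1⁻¹, fun h => ?_⟩ fun f hf => ?_
  · rintro _ (⟨p, rfl⟩ | rfl | rfl | rfl | rfl)
    exacts [c.memB _ (gv_in _ _ _ k), c.memB _ (U_in k).1, inv _ (U_in k).2.1,
      c.memB _ (U_in k).2.2.1, inv _ (U_in k).2.2.2.1]
  · let S : Subalgebra ℂ F :=
      { carrier := {f | ∃ b ∈ A0, b ≠ 0 ∧ b * f ∈ A0}
        mul_mem' := by
          rintro f f' ⟨b, h1, h2, h3⟩ ⟨b', k1, k2, k3⟩
          exact ⟨b * b', mul_mem h1 k1, mul_ne_zero h2 k2, by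
            rw [mul_mul_mul_comm]; exact mul_mem h3 k3⟩
        add_mem' := by
          rintro f f' ⟨b, h1, h2, h3⟩ ⟨b', k1, k2, k3⟩
          refine ⟨b * b', mul_mem h1 k1, mul_ne_zero h2 k2, ?_⟩
          convert add_mem (mul_mem k1 h3) (mul_mem h1 k3) using 1
          ring
        algebraMap_mem' := fun r => ⟨1, one_mem _, one_ne_zero, by simp⟩ }
    let S' := S.toIntermediateField fun f hf => by
      obtain ⟨b, h1, h2, h3⟩ := hf
      by_cases h : f = 0
      · rw [h, _root_.inv_zero]; exact zero_mem _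
      · exact ⟨b * f, h3, mul_ne_zero h2 h, by rwa [mul_inv_cancel_right₀ h]⟩
    have hS : ∀ e, InC 0 e → c.m e ∈ S' := fun e h => by
      obtain ⟨n, hn⟩ := hloc 0 _ (c.memB e h)
      exact ⟨_, pow_mem (hx 0) n, pow_ne_zero _ (mon_ne c.nz _), hn⟩
    have hT : ∀ (t : Fin 12) (n : ℕ), InC 0 (ev t + n • ev 6) → c.b t ∈ S' := fun t n h => by
      have := div_mem (hS _ h) (pow_mem (hS (ev 6) (by decide +kernel)) n)
      rwa [Ctx.m, mon_add c.nz, mon_nsmul, mul_div_cancel_right₀ _ (pow_ne_zero _ (mon_ne c.nz _)),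
        mon_ev] at this
    exact c.gen S' (hT 2 0 (by decide +kernel)) (hT 7 0 (by decide +kernel))
      (hT 10 54 (by decide +kernel)) (hT 11 51 (by decide +kernel))
  · rintro O' hO' hx' _ ⟨p, rfl⟩
    exact c.valc (fun q => hO' _ (rat_mem A0 q))
      (vunit (mon_ne c.nz _) (hO' _ (subset_adjoin (by simp))) (hO' _ (subset_adjoin (by simp))))
      (vunit (mon_ne c.nz _) (hO' _ (subset_adjoin (by simp))) (hO' _ (subset_adjoin (by simp))))
      (gv_good _ _ _) hx'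
  · let S : Subalgebra ℂ F := { O.toSubring with algebraMap_mem' := hC }
    have i : ∀ a : F, O.valuation a = 1 → a⁻¹ ∈ S := fun a h =>
      vmem (O := O) (by rw [map_inv₀, h, inv_one])
    refine fun a ha => (adjoin_le (S := S) ?_ : A0 ≤ S) ha
    rintro _ (⟨p, rfl⟩ | rfl | rfl | rfl | rfl)
    exacts [vmem (c.caseP (rat_mem S) hU1 hU2 (gv_good _ _ _) hV hu).le, vmem hU1.le, i _ hU1,
      vmem hU2.le, i _ hU2]
  · exact hT.ne (vunit (c.nz 10) (vmem hT.le) h)
  · have hQ : ∀ q : ℚ, (q : F) ∈ O := fun q => by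
      have := hC q
      rwa [map_ratCast] at this
    have k : ∀ U, O.valuation (c.m U) = 1 → c.ka c.W1 U ∈ O := fun U h =>
      neg_mem (mul_mem (mul_mem (hW _ (vmem h.le)) (vmem (O := O) (by rw [map_inv₀, h, inv_one])))
        (hQ _))
    exact vmul hT (vle (add_mem (add_mem (hW f hf) (mul_mem (k _ hU1) (hE1 f hf)))
      (mul_mem (k _ hU2) (hE2 f hf))))

end Vale.Agent.P266
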