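import Mathlib

/-! Forms in two elements of a field, their jets at the vertex, and interpolation on four lines. -/

namespace Vale.Agent.P266

variable {F : Type} [Field F] [CharZero F] {y V z : F}

/-- `f` behaves like a polynomial of degree at most `n` in `y` and `V`. -/
def Hm (y V : F) (n : ℕ) (f : F) : Prop :=
  ∀ (S : Subring F) (l : F), (∀ q : ℚ, (q : F) ∈ S) → l ∈ S → l * y ∈ S → l * V ∈ S →
    l ^ n * f ∈ S

namespace Hm
omit [CharZero F]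
variable {n m : ℕ} {f g : F}

lemma add (hf : Hm y V n f) (hg : Hm y V n g) : Hm y V n (f + g) := fun S l a b c d => by
  rw [mul_add]; exact add_mem (hf S l a b c d) (hg S l a b c d)
lemma sub (hf : Hm y V n f) (hg : Hm y V n g) : Hm y V n (f - g) := fun S l a b c d => by
  rw [mul_sub]; exact sub_mem (hf S l a b c d) (hg S l a b c d)
lemma mul (hf : Hm y V n f) (hg : Hm y V m g) : Hm y V (n + m) (f * g) := fun S l a b c d => by
  rw [pow_add, mul_mul_mul_comm]; exact mul_mem (hf S l a b c d) (hg S l a b c d)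
lemma mono (hf : Hm y V n f) (h : n ≤ m) : Hm y V m f := fun S l a b c d => by
  obtain ⟨k, rfl⟩ := Nat.exists_eq_add_of_le' h
  rw [pow_add, mul_assoc]; exact mul_mem (pow_mem b _) (hf S l a b c d)
lemma mul' (hf : Hm y V n f) (hg : Hm y V m g) {k : ℕ} (h : n + m ≤ k) :
    Hm y V k (f * g) := (hf.mul hg).mono h
lemma rat (q : ℚ) : Hm y V n (q : F) := fun S l a b _ _ => mul_mem (pow_mem b _) (a q)
lemma cmul (q : ℚ) (hf : Hm y V n f) : Hm y V n (q * f) := (rat (n := 0) q).mul' hf (by omega)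
lemma one : Hm y V n 1 := by simpa using rat (y := y) (V := V) (n := n) 1
lemma zero : Hm y V n 0 := by simpa using rat (y := y) (V := V) (n := n) 0
lemma fst : Hm y V 1 y := fun S l _ _ c _ => by simpa using c
lemma snd : Hm y V 1 V := fun S l _ _ _ d => by simpa using d
lemma pow (hf : Hm y V n f) (k : ℕ) : Hm y V (k * n) (f ^ k) := by
  induction k with
  | zero => simpa using one
  | succ k ih => rw [pow_succ, add_mul, one_mul]; exact ih.mul hf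
lemma vpow (k : ℕ) : Hm y V k (V ^ k) := by simpa using (snd (y := y) (V := V)).pow k
lemma lin (q : ℚ) : Hm y V 1 (y - q) := fst.sub (rat q)
lemma mem (hf : Hm y V n f) {S : Subring F} (a : ∀ q : ℚ, (q : F) ∈ S) (c : y ∈ S) (d : V ∈ S) :
    f ∈ S := by simpa using hf S 1 a (one_mem _) (by simpa) (by simpa)
end Hm

/-- The form in `z`, `V` with the given coefficients (highest power of `V` first). -/
def hp (z V : F) : List ℚ → F
  | [] => 0
  | c :: l => c * V ^ l.length + z * hp z V l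

omit [CharZero F] in
lemma Hm_hp (hz : Hm y V 1 z) : ∀ (l : List ℚ) (n : ℕ), l.length ≤ n + 1 → Hm y V n (hp z V l)
  | [], _, _ => Hm.zero
  | [c], n, _ => by simpa [hp] using Hm.rat c
  | c :: d :: l, 0, h => by simp at h
  | c :: d :: l, n + 1, h => by
    rw [hp]
    exact (((Hm.vpow _).cmul c).mono (by simpa using h)).add
      (hz.mul' (Hm_hp hz (d :: l) n (by simpa using h)) (by omega))

omit [CharZero F] in
lemma hp_scale (t z V : F) : ∀ (l : List ℚ) (c : ℚ),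
    hp (t * z) (t * V) (c :: l) = t ^ l.length * hp z V (c :: l)
  | [], c => by simp [hp]
  | d :: l, c => by
    rw [hp, hp_scale t z V l d, hp.eq_2 z V c]
    simp only [List.length_cons]; ring

/-- Second order jet of a form of degree `n + 3` along `z = 0`. -/
def Jet (y V z : F) (n : ℕ) (f : F) (a0 a1 a2 : ℚ) : Prop :=
  ∃ t, Hm y V n t ∧
    f = a0 * V ^ (n + 3) + a1 * z * V ^ (n + 2) + a2 * z ^ 2 * V ^ (n + 1) + z ^ 3 * t

/-- `g` multiplies jets like a form of degree `d` with the given jet. -/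
def Mu (y V z : F) (d : ℕ) (g : F) (b0 b1 b2 : ℚ) : Prop :=
  ∀ n f a0 a1 a2, Jet y V z n f a0 a1 a2 →
    Jet y V z (n + d) (f * g) (a0 * b0) (a0 * b1 + a1 * b0) (a0 * b2 + a1 * b1 + a2 * b0)

variable {n m d : ℕ} {f g : F} {a0 a1 a2 b0 b1 b2 : ℚ}

omit [CharZero F] in
lemma Jet.congr (h : Jet y V z n f a0 a1 a2) (hn : n = m) (hf : f = g) (h0 : a0 = b0)
    (h1 : a1 = b1) (h2 : a2 = b2) : Jet y V z m g b0 b1 b2 := by
  subst hn hf h0 h1 h2; exact h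

omit [CharZero F] in
lemma jet_hp (hz : Hm y V 1 z) (a0 a1 a2 : ℚ) (l : List ℚ) (h : l.length = n + 1) :
    Jet y V z n (hp z V (a0 :: a1 :: a2 :: l)) a0 a1 a2 :=
  ⟨hp z V l, Hm_hp hz l n h.le, by simp only [hp, List.length_cons, h]; ring⟩

lemma Mu_hp2 (hz : Hm y V 1 z) (b0 b1 b2 : ℚ) : Mu y V z 2 (hp z V [b0, b1, b2]) b0 b1 b2 := by
  rintro n f a0 a1 a2 ⟨t, ht, rfl⟩
  refine ⟨(a1 * b2 + a2 * b1 : ℚ) * V ^ (n + 2) + (a2 * b2 : ℚ) * (z * V ^ (n + 1)) +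
    t * hp z V [b0, b1, b2], (((Hm.vpow _).cmul _).add ((hz.mul' (Hm.vpow _) (by omega)).cmul _)).add
      (ht.mul (Hm_hp hz _ _ (by simp))), ?_⟩
  simp only [hp, List.length]; push_cast; ring

lemma Mu_hp1 (hz : Hm y V 1 z) (b0 b1 : ℚ) : Mu y V z 1 (hp z V [b0, b1]) b0 b1 0 := by
  rintro n f a0 a1 a2 ⟨t, ht, rfl⟩
  refine ⟨(a2 * b1 : ℚ) * V ^ (n + 1) + t * hp z V [b0, b1],
    ((Hm.vpow _).cmul _).add (ht.mul (Hm_hp hz _ _ (by simp))), ?_⟩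
  simp only [hp, List.length]; push_cast; ring

lemma Mu_V : Mu y V z 1 V 1 0 0 := by
  rintro n f a0 a1 a2 ⟨t, ht, rfl⟩
  exact ⟨t * V, ht.mul Hm.snd, by push_cast; ring⟩

lemma Mu_rat (b0 : ℚ) : Mu y V z 0 (b0 : F) b0 0 0 := by
  rintro n f a0 a1 a2 ⟨t, ht, rfl⟩
  exact ⟨b0 * t, ht.cmul _, by push_cast; ring⟩

lemma Jet.mu (hz : Hm y V 1 z) (h : Jet y V z m g b0 b1 b2) : Mu y V z (m + 3) g b0 b1 b2 := by
  obtain ⟨s, hs, hg⟩ := h
  rintro n f a0 a1 a2 ⟨t, ht, rfl⟩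
  have hA : ∀ (k : ℕ) (c0 c1 c2 : ℚ), Hm y V (k + 3)
      (c0 * V ^ (k + 3) + c1 * (z * V ^ (k + 2)) + c2 * (z ^ 2 * V ^ (k + 1))) :=
    fun k c0 c1 c2 => (((Hm.vpow _).cmul _).add ((hz.mul' (Hm.vpow _) (by omega)).cmul _)).add
      (((hz.pow 2).mul' (Hm.vpow _) (by omega)).cmul _)
  refine ⟨(a1 * b2 + a2 * b1 : ℚ) * V ^ (n + (m + 3)) + (a2 * b2 : ℚ) * (z * V ^ (n + m + 2)) +
    (a0 * V ^ (n + 3) + a1 * (z * V ^ (n + 2)) + a2 * (z ^ 2 * V ^ (n + 1))) * s +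
    t * (b0 * V ^ (m + 3) + b1 * (z * V ^ (m + 2)) + b2 * (z ^ 2 * V ^ (m + 1)) + z ^ 3 * s),
    ((((Hm.vpow _).cmul _).add ((hz.mul' (Hm.vpow _) (by omega)).cmul _)).add
      ((hA _ _ _ _).mul' hs (by omega))).add
      (ht.mul ((hA _ _ _ _).add ((hz.pow 3).mul' hs (by omega)))), ?_⟩
  rw [hg]; push_cast; ring

lemma Mu.pow (h : Mu y V z d g 1 b1 b2) (k : ℕ) :
    Mu y V z (k * d) (g ^ k) 1 (k * b1) (k * b2 + k * (k - 1) / 2 * b1 ^ 2) := by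
  induction k with
  | zero => intro n f a0 a1 a2 hf; exact hf.congr (by simp) (by simp) (by simp) (by simp) (by simp)
  | succ k ih =>
    intro n f a0 a1 a2 hf
    exact (h _ _ _ _ _ (ih _ _ _ _ _ hf)).congr (by ring) (by ring) (by ring) (by push_cast; ring)
      (by push_cast; ring)

lemma Jet.add_sq (hz : Hm y V 1 z) (hf : Jet y V z (m + 2) f a0 a1 a2)
    (hg : Jet y V z m g b0 b1 b2) : Jet y V z (m + 2) (f + z ^ 2 * g) a0 a1 (a2 + b0) := by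
  obtain ⟨t, ht, rfl⟩ := hf
  obtain ⟨s, hs, rfl⟩ := hg
  refine ⟨t + b1 * V ^ (m + 2) + b2 * (z * V ^ (m + 1)) + z ^ 2 * s,
    ((ht.add ((Hm.vpow _).cmul _)).add ((hz.mul' (Hm.vpow _) (by omega)).cmul _)).add
      ((hz.pow 2).mul' hs (by omega)), ?_⟩
  push_cast; ring

/-- `H` agrees with `h` on the line `e = 0`. -/
def On (y V : F) (n : ℕ) (H h e : F) : Prop := ∃ R, Hm y V n R ∧ H = h + e * R

/-- Interpolation on four concurrent lines. -/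
lemma interp (y1 y2 i0 i1 i2 : ℚ) (e0 : i0 * (y1 * y2) = 1) (e1 : i1 * (y1 * (y1 - y2)) = 1)
    (e2 : i2 * (y2 * (y2 - y1)) = 1) {hp h1 h2 h0 : F} {p1 p2 u1 u2 v1 v2 c w2 : ℚ}
    (jp : Jet y V 1 n hp a0 p1 p2) (j1 : Jet y V 1 n h1 a0 u1 u2)
    (j2 : Jet y V 1 n h2 a0 v1 v2) (j0 : Jet y V y n h0 a0 c w2)
    (c1 : u1 = p1 + c * y1) (c2 : v1 = p1 + c * y2) (c3 : w2 = i0 * p2 + i1 * u2 + i2 * v2) :
    ∃ H, Hm y V (n + 3) H ∧ On y V (n + 2) H hp y ∧ On y V (n + 2) H h1 (y - y1) ∧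
      On y V (n + 2) H h2 (y - y2) ∧ On y V (n + 2) H h0 1 := by
  obtain ⟨tp, mp, rfl⟩ := jp
  obtain ⟨t1, m1, rfl⟩ := j1
  obtain ⟨t2, m2, rfl⟩ := j2
  obtain ⟨t0, m0, rfl⟩ := j0
  have e0' : (i0 : F) * (y1 * y2) = 1 := by exact_mod_cast e0
  have e1' : (i1 : F) * (y1 * (y1 - y2)) = 1 := by exact_mod_cast e1
  have e2' : (i2 : F) * (y2 * (y2 - y1)) = 1 := by exact_mod_cast e2
  subst c1 c2 c3
  have hT : ∀ (a : ℚ) (t : F), Hm y V n t → Hm y V (n + 1) (a * V ^ (n + 1) + t) :=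
    fun a t h => ((Hm.vpow _).cmul _).add (h.mono (by omega))
  have Y : Hm y V 1 y := Hm.fst
  have L : ∀ q : ℚ, Hm y V 1 (y - q) := Hm.lin
  have A : ∀ (i : ℚ) {e t : F}, Hm y V 1 e → Hm y V (n + 1) t → Hm y V (n + 2) (i * (e * t)) :=
    fun i _ _ h h' => (h.mul' h' (by omega)).cmul i
  have B : ∀ {e e' t : F}, Hm y V 1 e → Hm y V 1 e' → Hm y V n t → Hm y V (n + 2) (e * e' * t) :=
    fun h h' h'' => (h.mul h').mul' h'' (by omega)
  have C : Hm y V (n + 2) (c * V ^ (n + 2)) := (Hm.vpow _).cmul _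
  have Tp := hT p2 _ mp
  have T1 := hT u2 _ m1
  have T2 := hT v2 _ m2
  have r0 : Hm y V (n + 2) (p1 * V ^ (n + 2) + i0 * ((y - y1) * (y - y2) * tp) +
      i1 * (y * (y - y2) * t1) + i2 * (y * (y - y1) * t2) +
      (i0 * p2 : ℚ) * ((-(y1 + y2) : ℚ) * (y - (0 : ℚ)) * V ^ (n + 1) +
        (y1 * y2 : ℚ) * V ^ (n + 1)) + (-(i1 * u2 * y2 + i2 * v2 * y1) : ℚ) * (y * V ^ (n + 1)) +
      ((-(y1 + y2) : ℚ) * (y * y * t0) + (y1 * y2 : ℚ) * (y * t0))) :=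
    (((((((Hm.vpow _).cmul _).add ((B (L _) (L _) mp).cmul _)).add ((B Y (L _) m1).cmul _)).add
      ((B Y (L _) m2).cmul _)).add ((((((L _).cmul _).mul' (Hm.vpow _) (by omega))).add
        (((Hm.vpow _).cmul _).mono (by omega))).cmul _)).add (A _ Y (Hm.vpow _))).add
      (((B Y Y m0).cmul _).add ((Y.mul' m0 (by omega)).cmul _))
  refine ⟨a0 * V ^ (n + 3) + (p1 + c * y) * V ^ (n + 2) +
    i0 * ((y - y1) * (y - y2) * (p2 * V ^ (n + 1) + tp)) +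
    i1 * (y * (y - y2) * (u2 * V ^ (n + 1) + t1)) + i2 * (y * (y - y1) * (v2 * V ^ (n + 1) + t2)) +
    y * (y - y1) * (y - y2) * t0, ?_,
    ⟨_, (((C.add (A i0 (L (y1 + y2)) Tp)).add (A i1 (L y2) T1)).add (A i2 (L y1) T2)).add
      (B (L y1) (L y2) m0), ?_⟩,
    ⟨_, (((C.add (A i0 (L y2) Tp)).add (A i1 (L (y2 - y1)) T1)).add (A i2 Y T2)).add
      (B Y (L y2) m0), ?_⟩,
    ⟨_, (((C.add (A i0 (L y1) Tp)).add (A i1 Y T1)).add (A i2 (L (y1 - y2)) T2)).add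
      (B Y (L y1) m0), ?_⟩, ⟨_, r0, ?_⟩⟩
  · have B' : ∀ (i : ℚ) {e e' t : F}, Hm y V 1 e → Hm y V 1 e' → Hm y V (n + 1) t →
        Hm y V (n + 3) (i * (e * e' * t)) :=
      fun i _ _ _ h h' h'' => ((h.mul h').mul' h'' (by omega)).cmul i
    exact ((((((Hm.vpow _).cmul _).add (((Hm.rat _).add (Y.cmul _)).mul' (Hm.vpow _)
      (by omega))).add (B' _ (L _) (L _) Tp)).add (B' _ Y (L _) T1)).add (B' _ Y (L _) T2)).add
      (((Y.mul (L _)).mul (L _)).mul' m0 (by omega))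
  · push_cast; linear_combination (p2 * V ^ (n + 1) + tp) * e0'
  · push_cast; linear_combination (u2 * V ^ (n + 1) + t1) * e1'
  · push_cast; linear_combination (v2 * V ^ (n + 1) + t2) * e2'
  · push_cast; ring

omit [CharZero F] in
lemma On.wedge {e P1 P2 Q1 Q2 a b c d : F} {n1 n2 : ℕ} (he : Hm y V 1 e)
    (h1 : Hm y V (n1 + 4) P1) (h2 : Hm y V (n2 + 4) P2) (k1 : Hm y V (n1 + 1) Q1)
    (k2 : Hm y V (n2 + 1) Q2) (o1 : On y V (n1 + 3) P1 a e) (o2 : On y V (n2 + 3) P2 b e)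
    (o3 : On y V n1 Q1 c e) (o4 : On y V n2 Q2 d e) :
    On y V (n1 + n2 + 4) (P1 * Q2 - P2 * Q1) (a * d - b * c) e := by
  obtain ⟨R1, r1, e1⟩ := o1
  obtain ⟨R2, r2, e2⟩ := o2
  obtain ⟨R3, r3, e3⟩ := o3
  obtain ⟨R4, r4, e4⟩ := o4
  refine ⟨R1 * Q2 + P1 * R4 - e * R1 * R4 - (R2 * Q1 + P2 * R3 - e * R2 * R3),
    (((r1.mul' k2 (by omega)).add (h1.mul' r4 (by omega))).sub
      ((he.mul r1).mul' r4 (by omega))).sub (((r2.mul' k1 (by omega)).add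
        (h2.mul' r3 (by omega))).sub ((he.mul r2).mul' r3 (by omega))), ?_⟩
  rw [e1, e2, e3, e4]; ring

end Vale.Agent.P266
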