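import Vale.Agent.P266.Glue

/-! The concrete field. -/

namespace Vale.Agent.P266
open MvPolynomial Algebra

abbrev R4 := MvPolynomial (Fin 4) ℂ
abbrev F4 := FractionRing R4

noncomputable def xx (i : Fin 4) : F4 := algebraMap R4 F4 (X i)

lemma exO : ∃ O : ValuationSubring F4, (∀ a : R4, algebraMap R4 F4 a ∈ O) ∧
    ∀ a : R4, O.valuation (algebraMap R4 F4 a) < 1 ↔ X 0 ∣ a := by
  let e := AlgEquiv.ofInjective (IsScalarTower.toAlgHom ℂ R4 F4) (IsFractionRing.injective R4 F4)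
  have : (Ideal.span {(X 0 : R4)}).IsPrime :=
    (Ideal.span_singleton_prime (X_ne_zero 0)).2 X_prime
  obtain ⟨O, h1, h2⟩ := exists_val _ ((Ideal.span {(X 0 : R4)}).comap e.symm)
  refine ⟨O, fun a => h1 _ ⟨a, rfl⟩, fun a => (h2 (e a)).trans ?_⟩
  rw [Ideal.mem_comap, AlgEquiv.symm_apply_apply, Ideal.mem_span_singleton]

lemma exD (i : Fin 4) : ∃ D : Derivation ℂ F4 F4,
    ∀ a, D (algebraMap R4 F4 a) = algebraMap R4 F4 (pderiv i a) :=
  ext_der ((Algebra.linearMap R4 F4).compDer (pderiv i))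

lemma hp_poly (l : List ℚ) : ∃ a : R4, algebraMap R4 F4 a = hp 1 (xx 1) l ∧
    eval ![0, 1, 0, 0] a = (hp 1 (1 : ℚ) l : ℚ) := by
  induction l with
  | nil => exact ⟨0, by simp [hp], by simp [hp]⟩
  | cons c l ih =>
    obtain ⟨a, h1, h2⟩ := ih
    refine ⟨C (c : ℂ) * X 1 ^ l.length + a, ?_, by simp [hp, h2]⟩
    rw [map_add, map_mul, map_pow, h1, hp, one_mul, ← MvPolynomial.algebraMap_eq,
      ← IsScalarTower.algebraMap_apply, map_ratCast]
    rfl

lemma der3 (D : Derivation ℂ F4 F4) {a b q : F4} (ha : a ≠ 0) (hb : b ≠ 0) (hq : q ≠ 0)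
    (n k : ℕ) : D (a ^ n * b * q ^ k) =
      a ^ n * b * q ^ k * (n * (D a / a) + D b / b + k * (D q / q)) := by
  have h : ∀ (a : F4) (n : ℕ), a ≠ 0 → D (a ^ n) = n * a ^ n * (D a / a) := fun a n h => by
    rw [← zpow_natCast, D.leibniz_zpow, zpow_sub_one₀ h]
    simp only [smul_eq_mul, zsmul_eq_mul]; push_cast; ring
  simp only [D.leibniz, h _ _ ha, h _ _ hq, smul_eq_mul]
  field_simp
  ring

lemma bas_ne {F : Type} [Field F] {y V T1 T2 G : F} (h0 : y - y1 ≠ 0) (h1 : y - y2 ≠ 0)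
    (h2 : y ≠ 0) (h3 : hp y V Lq0 ≠ 0) (h4 : hp 1 V Lq1 ≠ 0) (h5 : hp 1 V Lq2 ≠ 0)
    (h6 : hp 1 V Lqp ≠ 0) (h7 : V ≠ 0) (h8 : hp 1 V Lt2 ≠ 0) (h9 : G ≠ 0) (h10 : T1 ≠ 0)
    (h11 : T2 ≠ 0) : ∀ i, bas y V T1 T2 G i ≠ 0 := all12 h0 h1 h2 h3 h4 h5 h6 h7 h8 h9 h10 h11

lemma Ctx.b_eq {F : Type} [Field F] [CharZero F] [Algebra ℂ F] (c : Ctx F) :
    c.b 0 = c.y - y1 ∧ c.b 1 = c.y - y2 ∧ c.b 2 = c.y ∧ c.b 6 = hp 1 c.V Lqp ∧ c.b 9 = c.p.G ∧
      c.b 10 = c.T1 ∧ c.b 11 = c.T2 := ⟨rfl, rfl, rfl, rfl, rfl, rfl, rfl⟩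

theorem main : ∃ (A : Type) (_ : CommRing A) (_ : IsDomain A) (_ : Algebra ℂ A), FiniteType ℂ A ∧
    Module.Free A (Derivation ℂ A A) ∧ ¬ IsRegularRing A ∧ ¬ Smooth ℂ A := by
  obtain ⟨O, hO, hv⟩ := exO
  choose d hd using exD
  have hC : ∀ z : ℂ, algebraMap ℂ F4 z ∈ O := fun z => by
    rw [IsScalarTower.algebraMap_apply ℂ R4 F4]; exact hO _
  have hQ : ∀ q : ℚ, (q : F4) ∈ O.toSubring := fun q => by
    have := hC q
    rwa [map_ratCast] at this
  have un : ∀ a : R4, ¬ X 0 ∣ a → O.valuation (algebraMap R4 F4 a) = 1 := fun a h =>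
    vone (vle (hO a)) fun h' => h ((hv a).1 h')
  have dO : ∀ i, ∀ f ∈ O, d i f ∈ O := by
    intro i f hf
    have e := IsFractionRing.mk'_num_den' R4 f
    have hb : O.valuation (algebraMap R4 F4 (IsFractionRing.den R4 f)) = 1 := un _ fun h => by
      have h1 := un _ fun h' => X_prime.not_isUnit (IsFractionRing.num_den_reduced R4 f h' h)
      rw [div_eq_iff (by simp)] at e
      rw [e, mul_comm] at h1
      exact (vmul ((hv _).2 h) (vle hf)).ne h1
    rw [← e, Derivation.leibniz_div, hd, hd]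
    exact mul_mem (pow_mem (vmem (O := O) (by rw [map_inv₀, hb, inv_one])) 2)
      (sub_mem (mul_mem (hO _) (hO _)) (mul_mem (hO _) (hO _)))
  have dx : ∀ i j, d i (xx j) = if j = i then 1 else 0 := fun i j => by
    rw [xx, hd, pderiv_X, Pi.single_apply]
    split_ifs <;> simp
  have xO : ∀ i, xx i ∈ O := fun i => hO _
  have v0 : O.valuation (xx 0) < 1 := (hv _).2 dvd_rfl
  have vx : ∀ i, i ≠ 0 → O.valuation (xx i) = 1 := fun i hi => un _ fun h => hi (X_dvd_X.1 h).symm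
  have nx : ∀ i, xx i ≠ 0 := fun i => by simp [xx]
  have vh : ∀ l, hp 1 (1 : ℚ) l ≠ 0 → O.valuation (hp 1 (xx 1) l) = 1 := fun l hl => by
    obtain ⟨a, h1, h2⟩ := hp_poly l
    rw [← h1]
    refine un _ fun ⟨b, hb⟩ => hl ?_
    rw [hb] at h2
    simpa using h2.symm
  obtain ⟨q, hq⟩ : ∃ q, q = hp 1 (xx 1) Lqp := ⟨_, rfl⟩
  have vq : O.valuation q = 1 := hq ▸ vh _ (by norm_num [hp, Lqp])
  have ne : ∀ {a : F4}, O.valuation a = 1 → a ≠ 0 := fun h h' => by simp [h'] at h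
  have nq := ne vq
  have dq : ∀ i, d i q = d i (xx 1) := fun i => by rw [hq, der_hp]; simp [Lqp, dl, hp]
  obtain ⟨y, hy⟩ : ∃ y, y = xx 0 ^ 233415 * xx 3 * q ^ 2835 := ⟨_, rfl⟩
  have vy' : O.valuation y = O.valuation (xx 0) ^ 233415 := by
    simp [hy, vq, vx 3 (by decide)]
  have vp : ∀ n, n ≠ 0 → O.valuation (xx 0) ^ n < 1 := fun n h => pow_lt_one' v0 h
  have vy : O.valuation y < 1 := vy'.trans_lt (vp _ (by norm_num))
  have ny : y ≠ 0 := 
    hy.trans_ne (mul_ne_zero (mul_ne_zero (pow_ne_zero _ (nx 0)) (nx 3)) (pow_ne_zero _ nq))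
  obtain ⟨p⟩ := Pol.ex y (xx 1)
  have v1 : O.valuation (y - y1) = 1 :=
    vshift hQ (-y1) (by norm_num [y1]) vy (by push_cast; ring)
  have v2 : O.valuation (y - y2) = 1 :=
    vshift hQ (-y2) (by norm_num [y2]) vy (by push_cast; ring)
  have vG : O.valuation p.G = 1 := by
    obtain ⟨R, r, g⟩ := p.rG.2.1.mem hQ (vmem vy.le) (xO 1)
    rw [g]
    exact vadd (by simp [← hq, vq, vrat hQ (show kp ≠ 0 by norm_num [kp])]) (vmul vy (vle r))
  have dy := fun i => der3 (d i) (nx 0) (nx 3) nq 233415 2835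
  rw [← hy] at dy
  have n0 := nx 0
  have n3 := nx 3
  have d0 : xx 0 * d 0 y = 233415 * y := by rw [dy]; simp [dq, dx]; field_simp
  have d1 : q * d 1 y = 2835 * y := by rw [dy]; simp [dq, dx]; field_simp
  have d2 : d 2 y = 0 := by rw [dy]; simp [dq, dx]
  have d3 : xx 3 * d 3 y = y := by rw [dy]; simp [dq, dx]; field_simp
  let W := fun P Q : F4 => P • d 1 + (((y - y1) * (y - y2) * Q - 2835 * P / q) * xx 3) • d 3
  have Wy : ∀ P Q, W P Q y = y * (y - y1) * (y - y2) * Q := fun P Q => by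
    change P * d 1 y + _ * d 3 y = _
    rw [mul_assoc _ (xx 3), d3, eq_div_of_mul_eq nq ((mul_comm _ _).trans d1)]
    ring
  have WV : ∀ P Q, W P Q (xx 1) = P := fun P Q => by simp [W, dx]
  let c : Ctx F4 :=
    { y := y, V := xx 1, T1 := xx 0 ^ 83 * xx 2, T2 := xx 0, p := p
      W1 := W p.P1 p.Q1, W2 := W p.P2 p.Q2, E1 := xx 2 • d 2
      E2 := xx 0 • d 0 - (83 * xx 2) • d 2 - (233415 * xx 3) • d 3
      W1y := Wy _ _, W2y := Wy _ _, W1V := WV _ _, W2V := WV _ _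
      E1y := by simp [d2]
      E1V := by simp [dx]
      E1T1 := by simp [Derivation.leibniz, Derivation.leibniz_pow, dx, mul_comm]
      E1T2 := by simp [dx]
      E2y := by simp [d0, d2, d3, mul_assoc]
      E2V := by simp [dx]
      E2T1 := by simp [Derivation.leibniz, Derivation.leibniz_pow, dx]; ring
      E2T2 := by simp [dx]
      hb := bas_ne (ne v1) (ne v2) ny (by rw [Lq0]; exact ne (hp_unit hQ vy (vx 1 (by decide)) _))
        (ne (vh _ (by norm_num [hp, Lq1]))) (ne (vh _ (by norm_num [hp, Lq2]))) (hq.symm.trans_ne nq)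
        (nx 1)
        (ne (vh _ (by norm_num [hp, Lt2]))) (ne vG) (mul_ne_zero (pow_ne_zero _ (nx 0)) (nx 2))
        (nx 0)
      gen := fun S h1 h2 h3 h4 f => by
        have m2 : xx 2 ∈ S := by
          have := div_mem h3 (pow_mem h4 83)
          rwa [mul_div_cancel_left₀ _ (pow_ne_zero _ (nx 0))] at this
        have m3 : xx 3 ∈ S := by
          have := div_mem (div_mem h1 (pow_mem (show q ∈ S from hq ▸
            hp_mem (rat_mem S.toSubalgebra) (one_mem _) h2 _) 2835)) (pow_mem h4 233415)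
          rwa [hy, mul_div_cancel_right₀ _ (pow_ne_zero _ nq),
            mul_div_cancel_left₀ _ (pow_ne_zero _ (nx 0))] at this
        have m : ∀ a : R4, algebraMap R4 F4 a ∈ S := fun a => by
          induction a using MvPolynomial.induction_on with
          | C z => exact S.algebraMap_mem z
          | add a b ha hb => rw [map_add]; exact add_mem ha hb
          | mul_X a i ha =>
            rw [map_mul]
            refine mul_mem ha ?_
            fin_cases i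
            exacts [h4, h2, m2, m3]
        rw [← IsFractionRing.mk'_num_den' R4 f]
        exact div_mem (m _) (m _) }
  have g0 : O.valuation (xx 0) ≠ 0 := by simpa using nx 0
  have vT : O.valuation c.T1 = O.valuation (xx 0) ^ 83 := by
    change O.valuation (xx 0 ^ 83 * xx 2) = _
    simp [vx 2 (by decide)]
  obtain ⟨e0, e1, e2, e6, e9, e10, e11⟩ := c.b_eq
  have b0 := (congrArg _ e0).trans v1
  have b1 := (congrArg _ e1).trans v2
  have b2 := (congrArg _ e2).trans vy'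
  have b9 := (congrArg _ e9).trans vG
  have b10 := (congrArg _ e10).trans vT
  have b11 : O.valuation (c.b 11) = O.valuation (xx 0) := congrArg _ e11
  have sm : ∀ a ∈ O, ∀ i, ∀ f ∈ O, (a • d i) f ∈ O := fun a ha i f hf => mul_mem ha (dO i f hf)
  refine c.final ?_ O hC ?_ ?_ (xO 1) ?_ (vT.trans_lt (vp _ (by norm_num)))
    (fun f hf => ?_)
    (sm _ (xO 2) 2) fun f hf => ?_
  · rw [← trdeg_add_eq ℂ R4, MvPolynomial.trdeg_of_isDomain,
      @trdeg_eq_zero R4 F4 _ _ _ (IsLocalization.isAlgebraic F4 (nonZeroDivisors R4))]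
    simp
  · simp only [U1, Ctx.m, mon_add c.nz, mon_sub c.nz, mon_nsmul, mon_ev, map_mul, map_div₀, map_pow,
      b0, b1, b2, b9, b10, one_pow, div_one, mul_one, ← pow_mul, Nat.reduceMul]
    exact div_self (pow_ne_zero _ g0)
  · simp only [U2, Ctx.m, mon_add c.nz, mon_sub c.nz, mon_nsmul, mon_ev, map_mul, map_div₀, map_pow,
      b0, b1, b2, b9, b11, one_pow, div_one, mul_one, ← pow_mul, Nat.reduceMul]
    exact div_self (pow_ne_zero _ g0)
  · rw [c.mup, map_div₀, map_pow, e6, show hp 1 c.V Lqp = q from hq.symm, vq, one_pow, div_one]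
    exact vy
  · have a := fun {n f} (h : Hm y (xx 1) n f) => h.mem hQ (vmem vy.le) (xO 1)
    refine add_mem (sm _ (a p.rP1.1) 1 f hf) (sm _ (mul_mem (sub_mem (mul_mem (mul_mem
      (vmem v1.le) (vmem v2.le)) (a p.rQ1.1)) ?_) (xO 3)) 3 f hf)
    rw [div_eq_mul_inv]
    exact mul_mem (mul_mem (ofNat_mem _ _) (a p.rP1.1))
      (vmem (O := O) (by rw [map_inv₀, vq, inv_one]))
  · exact sub_mem (sub_mem (sm _ (xO 0) 0 f hf) (sm _ (mul_mem (ofNat_mem _ _) (xO 2)) 2 f hf))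
      (sm _ (mul_mem (ofNat_mem _ _) (xO 3)) 3 f hf)

end Vale.Agent.P266
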