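import Vale.Agent.P266.Poly

/-! Laurent monomials in twelve elements, frames, and valuation lemmas. -/

namespace Vale.Agent.P266
open Matrix

abbrev Vc := Fin 12 → ℤ
abbrev Mt := Matrix (Fin 12) (Fin 12) ℤ

def ev (i : Fin 12) : Vc := fun j => if j = i then 1 else 0
def mat (L : List (List ℤ)) : Mt := fun i j => (L.getD i []).getD j 0

/-- Coordinates of `e` are nonnegative at the non-unit places. -/
def Ok (Φ : Mt) (un : Fin 12 → Bool) (e : Vc) : Prop := ∀ l, un l = true ∨ 0 ≤ (e ᵥ* Φ) l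

instance (Φ : Mt) (un : Fin 12 → Bool) (e : Vc) : Decidable (Ok Φ un e) := by
  unfold Ok; infer_instance

lemma all12 {P : Fin 12 → Prop} (h0 : P 0) (h1 : P 1) (h2 : P 2) (h3 : P 3) (h4 : P 4) (h5 : P 5)
    (h6 : P 6) (h7 : P 7) (h8 : P 8) (h9 : P 9) (h10 : P 10) (h11 : P 11) : ∀ l, P l := by
  intro l; fin_cases l <;> assumption

variable {F : Type} [Field F]

def mon (b : Fin 12 → F) (e : Vc) : F := ∏ i, b i ^ e i

section
variable {b : Fin 12 → F} (hb : ∀ i, b i ≠ 0)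

lemma mon_ev (i : Fin 12) : mon b (ev i) = b i := by
  simp only [mon, ev]
  rw [Finset.prod_eq_single i] <;> simp +contextual

lemma mon_zsmul (n : ℤ) (e : Vc) : mon b (n • e) = mon b e ^ n := by
  simp only [mon, Pi.smul_apply, smul_eq_mul, ← Finset.prod_zpow, ← _root_.zpow_mul, mul_comm n]

lemma mon_nsmul (n : ℕ) (e : Vc) : mon b (n • e) = mon b e ^ n := by
  rw [← zpow_natCast, ← mon_zsmul, natCast_zsmul]

lemma mon_neg (e : Vc) : mon b (-e) = (mon b e)⁻¹ := by
  rw [← neg_one_zsmul, mon_zsmul, _root_.zpow_neg_one]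

include hb
lemma mon_ne (e : Vc) : mon b e ≠ 0 := Finset.prod_ne_zero_iff.2 fun i _ => zpow_ne_zero _ (hb i)

lemma mon_add (e f : Vc) : mon b (e + f) = mon b e * mon b f := by
  simp only [mon, Pi.add_apply, zpow_add₀ (hb _), Finset.prod_mul_distrib]

lemma mon_sub (e f : Vc) : mon b (e - f) = mon b e / mon b f := by
  rw [sub_eq_add_neg, mon_add hb, mon_neg, div_eq_mul_inv]

lemma mon_vecMul (β : Mt) (c : Vc) : mon b (c ᵥ* β) = mon (fun l => mon b (β l)) c := by
  have : ∀ s : Finset (Fin 12), mon b (∑ l ∈ s, c l • β l) = ∏ l ∈ s, mon b (β l) ^ c l := by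
    intro s
    induction s using Finset.induction_on with
    | empty => simp [mon]
    | insert a s ha ih => rw [Finset.sum_insert ha, Finset.prod_insert ha, mon_add hb, ih, mon_zsmul]
  rw [vecMul_eq_sum, this]; rfl

lemma mon_frame {β Φ : Mt} {N : ℕ} (hΦ : Φ * β = N • (1 : Mt)) (e : Vc) :
    mon b e ^ N = mon (fun l => mon b (β l)) (e ᵥ* Φ) := by
  rw [← mon_vecMul hb, vecMul_vecMul, hΦ, vecMul_smul, vecMul_one, mon_nsmul]

lemma der_mon [Algebra ℂ F] (D : Derivation ℂ F F) (e : Vc) :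
    D (mon b e) = mon b e * ∑ i, (e i : F) * (D (b i) / b i) := by
  have : ∀ s : Finset (Fin 12), D (∏ i ∈ s, b i ^ e i) =
      (∏ i ∈ s, b i ^ e i) * ∑ i ∈ s, (e i : F) * (D (b i) / b i) := by
    intro s
    induction s using Finset.induction_on with
    | empty => simp
    | insert a s ha ih =>
      rw [Finset.sum_insert ha, Finset.prod_insert ha, Derivation.leibniz, ih,
        Derivation.leibniz_zpow, zpow_sub_one₀ (hb a)]
      simp only [smul_eq_mul, zsmul_eq_mul]; ring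
  exact this _
end

lemma mon_mem {b : Fin 12 → F} (S : Subring F) (c : Vc) (h1 : ∀ l, b l ∈ S)
    (h2 : ∀ l, c l < 0 → (b l)⁻¹ ∈ S) : mon b c ∈ S := by
  refine prod_mem fun l _ => ?_
  obtain ⟨n, h | h⟩ := (c l).eq_nat_or_neg
  · rw [h, zpow_natCast]; exact pow_mem (h1 l) n
  · rw [h, _root_.zpow_neg, zpow_natCast, ← inv_pow]
    rcases n.eq_zero_or_pos with rfl | hn
    · simp
    · exact pow_mem (h2 l (by omega)) n

lemma frame_mem {b : Fin 12 → F} (hb : ∀ i, b i ≠ 0) {β Φ : Mt} (hΦ : Φ * β = 1 • (1 : Mt))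
    {un : Fin 12 → Bool} (S : Subring F) (h1 : ∀ l, mon b (β l) ∈ S)
    (h2 : ∀ l, un l = true → (mon b (β l))⁻¹ ∈ S) {e : Vc} (he : Ok Φ un e) : mon b e ∈ S := by
  have := mon_frame hb hΦ e
  rw [pow_one] at this
  rw [this]
  exact mon_mem S _ h1 fun l hl => h2 l ((he l).resolve_right (by omega))

lemma mem3 {b : Fin 12 → F} (hb : ∀ i, b i ≠ 0) {S : Subring F} {u v w : Vc} (hu : mon b u ∈ S)
    (hv : mon b v ∈ S) (hw : mon b w ∈ S) (x y z : ℕ) (e : Vc) (he : e = x • u + y • v + z • w) :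
    mon b e ∈ S := by
  rw [he, mon_add hb, mon_add hb, mon_nsmul, mon_nsmul, mon_nsmul]
  exact mul_mem (mul_mem (pow_mem hu _) (pow_mem hv _)) (pow_mem hw _)

section val
variable {O : ValuationSubring F}

lemma frame_lt {b : Fin 12 → F} (hb : ∀ i, b i ≠ 0) {β Φ : Mt} {N : ℕ}
    (hΦ : Φ * β = N • (1 : Mt)) {un : Fin 12 → Bool} (h0 : O.valuation (mon b (β 0)) < 1)
    (h1 : ∀ l, if un l = true then O.valuation (mon b (β l)) = 1
      else O.valuation (mon b (β l)) ≤ 1) {e : Vc} (he : Ok Φ un e) (he0 : 0 < (e ᵥ* Φ) 0) :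
    O.valuation (mon b e) < 1 := by
  have hb' : ∀ l, mon b (β l) ≠ 0 := fun l => mon_ne hb _
  have e1 := mon_frame hb hΦ e
  rw [← sub_add_cancel (e ᵥ* Φ) (ev 0), mon_add hb', mon_ev] at e1
  have e2 : mon (fun l => mon b (β l)) (e ᵥ* Φ - ev 0) ∈ O.toSubring := by
    refine mon_mem _ _ (fun l => (O.valuation_le_one_iff _).1 ?_) fun l hl =>
      (O.valuation_le_one_iff _).1 ?_
    · have := h1 l; split_ifs at this; exacts [this.le, this]
    · have := h1 l
      rcases he l with h | h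
      · rw [if_pos h] at this; rw [map_inv₀, this, inv_one]
      · simp only [Pi.sub_apply, ev] at hl
        split_ifs at hl with h'
        · subst h'; omega
        · omega
  have e3 : O.valuation (mon b e) ^ N < 1 := by
    rw [← map_pow, e1, map_mul]
    exact mul_lt_one_of_nonneg_of_lt_one_right ((O.valuation_le_one_iff _).2 e2) zero_le h0
  by_contra hn
  exact absurd e3 (not_lt.2 (one_le_pow_of_one_le' (not_lt.1 hn) N))

lemma contra {b : Fin 12 → F} (hb : ∀ i, b i ≠ 0) {x u w u1 u2 u3 u4 : Vc}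
    (hx : O.valuation (mon b x) < 1) (hu : O.valuation (mon b u) ≤ 1)
    (hw : O.valuation (mon b w) ≤ 1) (h1 : O.valuation (mon b u1) = 1)
    (h2 : O.valuation (mon b u2) = 1) (h3 : O.valuation (mon b u3) = 1)
    (h4 : O.valuation (mon b u4) = 1) (n m : ℕ) (z1 z2 z3 z4 : ℤ)
    (he : x + n • u + m • w + z1 • u1 + z2 • u2 + z3 • u3 + z4 • u4 = 0) : False := by
  have := congr(O.valuation (mon b $he))
  simp only [mon_add hb, mon_nsmul, mon_zsmul, map_mul, map_pow, map_zpow₀, h1, h2, h3, h4,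
    _root_.one_zpow, mul_one] at this
  have h0 : O.valuation (mon b 0) = 1 := by simp [mon]
  rw [h0, mul_assoc] at this
  exact (mul_lt_one_of_nonneg_of_lt_one_left zero_le hx
    (mul_le_one' (pow_le_one' hu n) (pow_le_one' hw m))).ne this

lemma vrat [CharZero F] (hQ : ∀ q : ℚ, (q : F) ∈ O.toSubring) {q : ℚ} (h : q ≠ 0) :
    O.valuation (q : F) = 1 := by
  have h1 := (O.valuation_le_one_iff _).2 (hQ q)
  have h2 := (O.valuation_le_one_iff _).2 (hQ q⁻¹)
  rw [Rat.cast_inv, map_inv₀, inv_le_one₀ (by simpa [zero_lt_iff] using h)] at h2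
  exact le_antisymm h1 h2

lemma vmul {a b : F} (ha : O.valuation a < 1) (hb : O.valuation b ≤ 1) :
    O.valuation (a * b) < 1 := by
  rw [map_mul]; exact mul_lt_one_of_nonneg_of_lt_one_left zero_le ha hb

lemma vadd {a b : F} (ha : O.valuation a = 1) (hb : O.valuation b < 1) :
    O.valuation (a + b) = 1 := by
  rw [Valuation.map_add_eq_of_lt_left _ (ha ▸ hb), ha]

lemma vle {a : F} (h : a ∈ O.toSubring) : O.valuation a ≤ 1 := (O.valuation_le_one_iff _).2 h
lemma vmem {a : F} (h : O.valuation a ≤ 1) : a ∈ O.toSubring := (O.valuation_le_one_iff _).1 h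

lemma hp_mem {S : Subring F} (hQ : ∀ q : ℚ, (q : F) ∈ S) {z V : F} (hz : z ∈ S) (hV : V ∈ S)
    (l : List ℚ) : hp z V l ∈ S := (Hm_hp (y := z) Hm.fst l _ (Nat.le_succ _)).mem hQ hz hV

lemma hp_unit (hQ : ∀ q : ℚ, (q : F) ∈ O.toSubring) {z V : F} (hz : O.valuation z < 1)
    (hV : O.valuation V = 1) (l : List ℚ) : O.valuation (hp z V (1 :: l)) = 1 :=
  vadd (by simp [hV]) (vmul hz (vle (hp_mem hQ (vmem hz.le) (vmem hV.le) l)))

lemma hp_cong [CharZero F] (hQ : ∀ q : ℚ, (q : F) ∈ O.toSubring) {V : F} (hV : V ∈ O.toSubring)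
    (a : ℚ) (h : O.valuation (V - a) < 1) (l : List ℚ) (hl : hp 1 a l ≠ 0) :
    O.valuation (hp 1 V l) = 1 := by
  have h1 : ∀ n : ℕ, O.valuation (V ^ n - a ^ n) < 1 := fun n => by
    rw [← Commute.mul_geom_sum₂ (Commute.all _ _)]
    exact vmul h (vle (sum_mem fun i _ => mul_mem (pow_mem hV _) (pow_mem (hQ a) _)))
  have h2 : ∀ l, O.valuation (hp 1 V l - (hp 1 a l : ℚ)) < 1 := by
    intro l
    induction l with
    | nil => simp [hp]
    | cons c l ih =>
      have : hp 1 V (c :: l) - (hp 1 a (c :: l) : ℚ) =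
          (V ^ l.length - a ^ l.length) * c + (hp 1 V l - (hp 1 a l : ℚ)) := by
        simp only [hp, Rat.cast_id]; push_cast; ring
      rw [this]
      exact Valuation.map_add_lt _ (vmul (h1 _) (vle (hQ c))) ih
  have := vadd (vrat hQ hl) (h2 l)
  rwa [add_sub_cancel] at this

variable {η q τ G R κ : F} {k M w e D : ℕ}

lemma line1 (hq0 : q ≠ 0) (ht0 : τ ≠ 0) (hq : O.valuation q ≤ 1) (ht : O.valuation τ ≤ 1)
    (hR : O.valuation R ≤ 1) (hκ : O.valuation κ = 1) (hG : G = κ * q ^ M * τ ^ D + η * R)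
    (hk : M ≤ k) (he : w * D ≤ e) (h : O.valuation ((η / q ^ k) ^ w / τ ^ e) < 1) :
    O.valuation (G / q ^ M / τ ^ D) = 1 := by
  obtain ⟨k, rfl⟩ := Nat.exists_eq_add_of_le hk
  obtain ⟨e, rfl⟩ := Nat.exists_eq_add_of_le he
  have e1 : G / q ^ M / τ ^ D = κ + η / q ^ M / τ ^ D * R := by rw [hG]; field_simp
  have e2 : (η / q ^ M / τ ^ D) ^ w =
      (η / q ^ (M + k)) ^ w / τ ^ (w * D + e) * ((q ^ k) ^ w * τ ^ e) := by
    simp only [div_pow, pow_add, mul_pow, ← pow_mul, mul_comm w]; field_simp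
  have e3 : O.valuation (η / q ^ M / τ ^ D) ^ w < 1 := by
    rw [← map_pow, e2]
    refine vmul h ?_
    simp only [map_mul, map_pow]
    exact mul_le_one' (pow_le_one' (pow_le_one' hq _) _) (pow_le_one' ht _)
  rw [e1]
  refine vadd hκ (vmul ?_ hR)
  by_contra hn
  exact absurd e3 (not_lt.2 (one_le_pow_of_one_le' (not_lt.1 hn) w))

lemma line2 (hq0 : q ≠ 0) (ht0 : τ ≠ 0) (hη0 : η ≠ 0)
    (hR : O.valuation R ≤ 1) (hκ : O.valuation κ = 1)
    (hG : G = κ * q ^ M * τ ^ D + η * R) (hη : O.valuation η < 1) :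
    O.valuation (G / q ^ M / τ ^ D) ≤ 1 ∨ (O.valuation (G / η) ≤ 1 ∧
      ¬ (O.valuation q = 1 ∧ O.valuation τ = 1)) := by
  rcases O.mem_or_inv_mem (η / q ^ M / τ ^ D) with h | h
  · left
    have e1 : G / q ^ M / τ ^ D = κ + η / q ^ M / τ ^ D * R := by rw [hG]; field_simp
    rw [e1]
    exact vle (add_mem (vmem hκ.le) (mul_mem h (vmem hR)))
  · right
    have e1 : G / η = κ * (η / q ^ M / τ ^ D)⁻¹ + R := by rw [hG]; field_simp
    refine ⟨e1 ▸ vle (add_mem (mul_mem (vmem hκ.le) h) (vmem hR)), fun ⟨h1, h2⟩ => ?_⟩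
    have := vle (O := O) h
    simp only [map_inv₀, map_div₀, map_pow, h1, h2, one_pow, div_one] at this
    rw [inv_le_one₀ (by simpa [zero_lt_iff] using hη0)] at this
    exact absurd hη (not_lt.2 this)

end val

end Vale.Agent.P266
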