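import Vale.Agent.P266.Chart4

/-! The valuation case analysis. -/

namespace Vale.Agent.P266
open Matrix

variable {F : Type} [Field F] [CharZero F] [Algebra ℂ F] {O : ValuationSubring F}

omit [CharZero F] [Algebra ℂ F] in
lemma vinv {a : F} (h : ¬ O.valuation a < 1) : O.valuation a⁻¹ ≤ 1 := by
  rw [map_inv₀]; exact inv_le_one_of_one_le₀ (not_lt.1 h)

omit [CharZero F] [Algebra ℂ F] in
lemma vone {a : F} (h : O.valuation a ≤ 1) (h' : ¬ O.valuation a < 1) : O.valuation a = 1 :=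
  le_antisymm h (not_lt.1 h')

omit [Algebra ℂ F] in
lemma vshift (hQ : ∀ q : ℚ, (q : F) ∈ O.toSubring) {a b : F} (q : ℚ) (hq : q ≠ 0)
    (h : O.valuation a < 1) (e : b = q + a) : O.valuation b = 1 := e ▸ vadd (vrat hQ hq) h

namespace Ctx
variable (c : Ctx F) (hQ : ∀ q : ℚ, (q : F) ∈ O.toSubring)
  (hU1 : O.valuation (c.m U1) = 1) (hU2 : O.valuation (c.m U2) = 1) {e : Vc} (he : Good e)

lemma mev (i : Fin 12) : c.m (ev i) = c.b i := mon_ev i

lemma mdw (i : Fin 12) (n : ℕ) : c.m (dw i n) = c.b i / c.V ^ n := by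
  simp only [dw, m, mon_sub c.nz, mon_nsmul, mon_ev]; rfl

include he in
lemma good (t : Fin 6) (h0 : O.valuation (c.m (bv t 0)) < 1)
    (h1 : ∀ l, if unv t l = true then O.valuation (c.m (bv t l)) = 1
      else O.valuation (c.m (bv t l)) ≤ 1) : O.valuation (c.m e) < 1 :=
  frame_lt c.nz (hFv t) h0 h1 (he t).1 (he t).2

include hQ hU1 hU2 he

lemma caseC (h1 : O.valuation c.V⁻¹ < 1) (h2 : O.valuation (c.y / c.V) < 1) :
    O.valuation (c.m e) < 1 := by
  have hV : c.V ≠ 0 := c.nz 7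
  have hy : c.y ≠ 0 := c.nz 2
  have u : ∀ (z : F) (l : List ℚ), O.valuation (z / c.V) < 1 →
      O.valuation (hp z c.V (1 :: l) / c.V ^ l.length) = 1 := fun z l h => by
    rw [hp_div hV]; exact hp_unit hQ h (by rw [div_self hV, map_one]) l
  have h3 : O.valuation (1 / c.V) < 1 := by rwa [one_div]
  have a3 : O.valuation (c.m (dw 3 5)) = 1 := c.mdw 3 5 ▸ u _ _ h2
  have a4 : O.valuation (c.m (dw 4 4)) = 1 := c.mdw 4 4 ▸ u _ _ h3
  have a5 : O.valuation (c.m (dw 5 2)) = 1 := c.mdw 5 2 ▸ u _ _ h3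
  have a6 : O.valuation (c.m (dw 6 1)) = 1 := c.mdw 6 1 ▸ u _ _ h3
  have a8 : O.valuation (c.m (dw 8 1)) = 1 := c.mdw 8 1 ▸ u _ _ h3
  have a9 : O.valuation (c.m (dw 9 105)) = 1 := by
    obtain ⟨R, r, g⟩ := c.p.rG.2.1
    have := r O.toSubring c.V⁻¹ hQ (vmem h1.le) (by rw [inv_mul_eq_div]; exact vmem h2.le)
      (by rw [inv_mul_cancel₀ hV]; exact one_mem _)
    have g' : c.m (dw 9 105) = kp * c.m (dw 6 1) ^ 105 + c.y / c.V * (c.V⁻¹ ^ 104 * R) := by
      rw [mdw, mdw, show c.b 9 = _ from g, show hp 1 c.V Lqp = c.b 6 from rfl]; field_simp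
    rw [g']
    exact vadd (by rw [map_mul, map_pow, a6, vrat hQ (by norm_num [kp])]; simp) (vmul h2 (vle this))
  rcases O.mem_or_inv_mem c.y with h | h
  · have b0 : O.valuation (c.m (-ev 7)) < 1 := by rw [m, mon_neg, mon_ev]; exact h1
    exact c.good he 0 b0 (all12 b0.le (c.mev 0 ▸ vle (sub_mem h (hQ _)))
      (c.mev 1 ▸ vle (sub_mem h (hQ _))) (c.mev 2 ▸ vle h) a3 a4 a5 a6 a8 a9 hU1 hU2)
  · have b0 : O.valuation (c.m (dw 2 1)) < 1 := by rw [mdw, pow_one]; exact h2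
    have b : ∀ q : ℚ, O.valuation ((c.y - q) / c.y ^ 1) ≤ 1 := fun q => by
      rw [show (c.y - q) / c.y ^ 1 = 1 - q * c.y⁻¹ by field_simp]
      exact vle (sub_mem (one_mem _) (mul_mem (hQ _) h))
    exact c.good he 1 b0 (all12 b0.le (c.minv ▸ vle h) (c.mdv 0 1 ▸ b _) (c.mdv 1 1 ▸ b _)
      a3 a4 a5 a6 a8 a9 hU1 hU2)

lemma caseP (hV : c.V ∈ O.toSubring) (h : O.valuation (c.m up) < 1) : O.valuation (c.m e) < 1 := by
  have hq : O.valuation (c.b 6) ≤ 1 := vle (hp_mem hQ (one_mem _) hV _)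
  have hy : O.valuation c.y < 1 := by
    have := vmul h (vle (pow_mem (vmem hq) 2835))
    rwa [mup, div_mul_cancel₀ _ (pow_ne_zero _ (c.nz 6))] at this
  have a := fun i h => vle (c.aff hQ (vmem hy.le) hV i h)
  obtain ⟨R, r, g⟩ := c.p.rG.2.1.mem hQ (vmem hy.le) hV
  have := line1 (k := 2835) (w := 1) (e := 0) (c.nz 6) one_ne_zero hq (by simp) (vle r)
    (vrat hQ (by norm_num [kp])) g (by norm_num) le_rfl (by simpa [mup] using h)
  have a9 : O.valuation (c.m gp) = 1 := by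
    simpa only [gp, m, mon_sub c.nz, mon_nsmul, mon_ev, pow_zero, div_one] using! this
  exact c.good he 2 h (all12 h.le (a 6 (by decide)) (a 3 (by decide)) (a 4 (by decide))
    (a 5 (by decide)) (a 7 (by decide)) (a 8 (by decide))
    (c.mev 0 ▸ vshift hQ (-y1) (by norm_num [y1]) hy (by push_cast; exact sub_eq_neg_add _ _))
    (c.mev 1 ▸ vshift hQ (-y2) (by norm_num [y2]) hy (by push_cast; exact sub_eq_neg_add _ _))
    a9 hU1 hU2)

lemma caseA (hx : ∀ k, O.valuation (c.m (xc k)) < 1) (hy : c.y ∈ O.toSubring)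
    (hV : c.V ∈ O.toSubring) : O.valuation (c.m e) < 1 := by
  have a := fun i h => vle (c.aff hQ hy hV i h)
  have hk := vrat hQ (show kp ≠ 0 by norm_num [kp])
  have u : ∀ i, O.valuation (c.b i) = 1 → O.valuation (c.m (ev i)) = 1 := fun i h => c.mev i ▸ h
  have le : ∀ i h, O.valuation (c.b i) ≤ 1 := fun i h => c.mev i ▸ a i h
  have Hq : O.valuation (c.b 6) = 1 ∨ (O.valuation (c.b 4) = 1 ∧ O.valuation (c.b 7) = 1) ∧
      O.valuation (c.b 5) = 1 ∧ O.valuation (c.b 8) = 1 := by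
    by_cases h : O.valuation (c.b 6) < 1
    · have h' : O.valuation (c.V - (-625 : ℚ)) < 1 := by
        convert h using 2
        change _ = hp 1 c.V Lqp
        simp [hp, Lqp]
      have := hp_cong hQ hV _ h'
      exact .inr ⟨⟨this _ (by norm_num [hp, Lq1]), vshift hQ (-625) (by norm_num) h'
        (by change c.V = _; ring)⟩, this _ (by norm_num [hp, Lq2]), this _ (by norm_num [hp, Lt2])⟩
    · exact .inl (vone (le 6 (by decide)) h)
  have G : ∀ i, O.valuation (c.p.G / c.b i) ≤ 1 → O.valuation (c.m (ev 9 - ev i)) ≤ 1 :=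
    fun i h => by rw [m, mon_sub c.nz, mon_ev, mon_ev]; exact h
  have cp := fun h b1 b2 b6 => contra c.nz (hx 0) (G 0 h) (a 0 (by decide)) (u 1 b1) (u 2 b2)
    (u 6 b6) (u 6 b6) 1000 100 (-970) (-1) (-102165) 0 (by decide +kernel)
  have c1 := fun h b0 b1 b4 b7 => contra c.nz (hx 1) (G 2 h) (a 2 (by decide)) (u 0 b0) (u 1 b1)
    (u 4 b4) (u 7 b7) 54 51 (-3) (-53) (-1260) (-5) (by decide +kernel)
  have ni : ∀ v, ¬ O.valuation (c.m v) < 1 → O.valuation (c.m (-v)) ≤ 1 := fun v h => by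
    rw [m, mon_neg]; exact vinv h
  by_cases h0 : O.valuation (c.b 0) < 1
  · have b1 : O.valuation (c.b 1) = 1 := vshift hQ (y1 - y2) (by norm_num [y1, y2]) h0
      (by change c.y - y2 = _ + (c.y - y1); push_cast; ring)
    have b2 : O.valuation (c.b 2) = 1 := vshift hQ y1 (by norm_num [y1]) h0
      (by change c.y = _ + (c.y - y1); ring)
    obtain ⟨R, r, g⟩ := c.p.rG.2.2.1.mem hQ hy hV
    have mg : c.m g1 = c.p.G / c.b 4 ^ 25 / c.b 7 ^ 5 := by
      simp only [g1, m, mon_sub c.nz, mon_nsmul, mon_ev]; rfl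
    by_cases h : O.valuation (c.m nx1) < 1
    · have := line1 (k := 30) (w := 3) (e := 265) (c.nz 4) (c.nz 7) (le 4 (by decide))
        (le 7 (by decide)) (vle r) hk g (by norm_num) (by norm_num)
        (by simpa only [nx1, u1, m, mon_sub c.nz, mon_nsmul, mon_ev] using! h)
      exact c.good he 3 h (all12 h.le (a 4 (by decide)) (a 7 (by decide)) (a 3 (by decide))
        (a 5 (by decide)) (a 6 (by decide)) (a 8 (by decide)) (u 1 b1) (u 2 b2) (mg ▸ this) hU1 hU2)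
    rcases line2 (c.nz 4) (c.nz 7) (c.nz 0) (vle r) hk g h0 with h1 | ⟨h1, h2⟩
    · exact (contra c.nz (hx 1) (ni _ h) (w := g1) ((congrArg _ mg).trans_le h1)
        (u 1 b1) (u 2 b2) (u 2 b2) (u 2 b2)
        1 54 (-53) (-3) 0 0 (by decide +kernel)).elim
    · exact (cp h1 b1 b2 (Hq.resolve_right fun h => h2 h.1)).elim
  have b0 := vone (le 0 (by decide)) h0
  by_cases h1 : O.valuation (c.b 1) < 1
  · have b2 : O.valuation (c.b 2) = 1 := vshift hQ y2 (by norm_num [y2]) h1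
      (by change c.y = _ + (c.y - y2); ring)
    obtain ⟨R, r, g⟩ := c.p.rG.2.2.2.1.mem hQ hy hV
    have mg : c.m g2 = c.p.G / c.b 5 ^ 52 / c.b 8 ^ 1 := by
      simp only [g2, m, mon_sub c.nz, mon_nsmul, mon_ev]; rfl
    by_cases h : O.valuation (c.m nx2) < 1
    · have := line1 (k := 54) (w := 13) (e := 1296) (c.nz 5) (c.nz 8) (le 5 (by decide))
        (le 8 (by decide)) (vle r) hk g (by norm_num) (by norm_num)
        (by simpa only [nx2, u2, m, mon_sub c.nz, mon_nsmul, mon_ev] using! h)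
      exact c.good he 4 h (all12 h.le (a 5 (by decide)) (a 8 (by decide)) (a 3 (by decide))
        (a 4 (by decide)) (a 6 (by decide)) (a 7 (by decide)) (u 0 b0) (u 2 b2) (mg ▸ this) hU1 hU2)
    rcases line2 (c.nz 5) (c.nz 8) (c.nz 1) (vle r) hk g h1 with h1 | ⟨h1, h2⟩
    · exact (contra c.nz (hx 2) (ni _ h) (w := g2) ((congrArg _ mg).trans_le h1)
        (u 0 b0) (u 2 b2) (u 2 b2) (u 2 b2)
        1 1297 (-1081) (-49) 0 0 (by decide +kernel)).elim
    · have b6 := Hq.resolve_right fun h => h2 h.2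
      exact (contra c.nz (hx 0) (G 1 h1) (a 1 (by decide)) (u 0 b0) (u 2 b2)
        (u 6 b6) (u 6 b6) 1000 30 (-900) (-1) (-102165) 0 (by decide +kernel)).elim
  have b1 := vone (le 1 (by decide)) h1
  by_cases h2 : O.valuation (c.b 2) < 1
  · by_cases h : O.valuation (c.m up) < 1
    · exact c.caseP hQ hU1 hU2 he hV h
    obtain ⟨R, r, g⟩ := c.p.rG.2.1.mem hQ hy hV
    rcases line2 (c.nz 6) one_ne_zero (c.nz 2) (vle r) hk g h2 with h1 | ⟨h1, h2⟩
    · refine (contra c.nz (hx 0) (ni _ h) (w := gp) ?_ (u 0 b0) (u 1 b1) (u 1 b1) (u 1 b1)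
        1 1000 (-900) (-970) 0 0 (by decide +kernel)).elim
      simpa only [gp, m, mon_sub c.nz, mon_nsmul, mon_ev, pow_zero, div_one] using! h1
    · have := (Hq.resolve_left fun h => h2 ⟨h, map_one _⟩).1
      exact (c1 h1 b0 b1 this.1 this.2).elim
  have b2 := vone (le 2 (by decide)) h2
  have g : ∀ i, O.valuation (c.b i) = 1 → O.valuation (c.p.G / c.b i) ≤ 1 := fun i h => by
    rw [map_div₀, h, div_one]; exact le 9 (by decide)
  rcases Hq with h | h
  · exact (cp (g 0 b0) b1 b2 h).elim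
  · exact (c1 (g 2 b2) b0 b1 h.1.1 h.1.2).elim

lemma caseI (hx : ∀ k, O.valuation (c.m (xc k)) < 1) (hy : O.valuation c.y⁻¹ < 1)
    (hV : c.V / c.y ∈ O.toSubring) : O.valuation (c.m e) < 1 := by
  have h0 : c.y ≠ 0 := c.nz 2
  have hk := vrat hQ (show kp ≠ 0 by norm_num [kp])
  obtain ⟨-, -, a3, a4, a5, a6, a7, a8, R, r, g⟩ := c.inf hQ (vmem hy.le) hV
  have b : ∀ q : ℚ, O.valuation ((c.y - q) / c.y ^ 1) = 1 := fun q => by
    rw [show (c.y - q) / c.y ^ 1 = 1 + c.y⁻¹ * (-q : ℚ) by push_cast; field_simp; ring]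
    exact vadd (map_one _) (vmul hy (vle (hQ _)))
  have b0 : O.valuation (c.m (dv 0 1)) = 1 := c.mdv 0 1 ▸ b _
  have b1 : O.valuation (c.m (dv 1 1)) = 1 := c.mdv 1 1 ▸ b _
  have mg : c.m g0 = c.m (dv 9 105) / c.m (dv 3 5) ^ 21 / 1 ^ 0 := by
    rw [g0, m, mon_sub c.nz, mon_nsmul, pow_zero, div_one]
  by_cases h : O.valuation (c.m u0) < 1
  · have := line1 (k := 84) (w := 1) (e := 0) (mon_ne c.nz _) one_ne_zero (vle a3) (by simp) (vle r)
      hk g (by norm_num) le_rfl 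
      (by rw [pow_one, pow_zero, div_one, show mon c.b _ = _ from c.mq0, ← mu0]; exact h)
    exact c.good he 5 h (all12 h.le (vle a3) (vle a4) (vle a5) (vle a6) (vle a7) (vle a8) b0 b1
      (mg ▸ this) hU1 hU2)
  rcases line2 (mon_ne c.nz _) one_ne_zero (inv_ne_zero h0) (vle r) hk g hy with h1 | ⟨h1, h2⟩
  · exact (contra c.nz (hx 3) (u := -u0) (by rw [mon_neg]; exact vinv h) (w := g0)
      ((congrArg _ mg).trans_le h1)
      b0 b1 b1 b1 1 5 (-5) (-5) 0 0 (by decide +kernel)).elim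
  · have s : O.valuation (c.V / c.y) = 1 := vone (vle hV) fun hs => h2 ⟨by
      rw [show mon c.b _ = _ from c.mq0]
      exact hp_cong hQ hV 0 (by simpa using hs) _ (by norm_num [hp, Lq0]), map_one _⟩
    have b6 : O.valuation (c.m (dv 6 1)) = 1 := by
      rw [mdv, show c.b 6 / c.y ^ 1 = c.V / c.y + c.y⁻¹ * (625 : ℚ) by
        change hp 1 c.V Lqp / _ = _; simp [hp, Lqp]; field_simp]
      exact vadd s (vmul hy (vle (hQ _)))
    exact (contra c.nz (hx 0) (u := dv 9 105 - -ev 2) (w := -ev 2)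
      (by rw [mon_sub c.nz, show mon c.b _ = _ from c.minv]; exact h1)
      ((congrArg _ c.minv).trans_le hy.le) b0 b1 b6 b6
      1000 36 (-900) (-970) (-102165) 0 (by decide +kernel)).elim

theorem valc (hx : ∀ k, O.valuation (c.m (xc k)) < 1) : O.valuation (c.m e) < 1 := by
  have nm : ∀ a : F, a ∉ O → O.valuation a⁻¹ < 1 := fun a h => by
    rw [map_inv₀]
    exact inv_lt_one_of_one_lt₀ (not_le.1 fun h' => h ((O.valuation_le_one_iff _).1 h'))
  by_cases hy : c.y ∈ O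
  · by_cases hV : c.V ∈ O
    · exact c.caseA hQ hU1 hU2 he hx hy hV
    · exact c.caseC hQ hU1 hU2 he (nm _ hV)
        (by rw [div_eq_inv_mul]; exact vmul (nm _ hV) (vle hy))
  by_cases hV : c.V / c.y ∈ O
  · exact c.caseI hQ hU1 hU2 he hx (nm _ hy) hV
  · have h := nm _ hV
    rw [inv_div] at h
    refine c.caseC hQ hU1 hU2 he ?_ h
    have := vmul h (nm _ hy).le
    have h0 : c.y ≠ 0 := c.nz 2
    rwa [show c.y / c.V * c.y⁻¹ = c.V⁻¹ by field_simp] at this

end Ctx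

end Vale.Agent.P266
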